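import Vale.Agent.P030.AR.NStar

/-!
# P030, route N: the top theorem for arbitrary frames and coordinates (helper991)

`Geo` = tree, walls, radii; `Frs` = frames of the upper cells (any base change of rows and
coordinates); `GPat` = zero patterns in the form of vanishing entries; `R` = the change of the
eight coordinates.  `stAR_G` = `stAR_N` in this generality.
-/

open Matrix Set Filter Topology
open Vale.Agent.P030.H580 Vale.Agent.P030.H152
open Vale.Agent.P030.H265 (YD WallData colY OmP Sq yz Pz Pm' RqC Uc mem_Uc isOpen_Uc frm frm_diff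
  frm_unitri Pz_adap Pm'_adap Pz_strip Adap Cst kF)
open Vale.Agent.P030.H639 (Rel Zr trans_zero cj kF_cj cst_cj)
open Vale.Agent.P030.H866 (Tot Sc DetB Loc stAR_of_det)
open Vale.Agent.P030.H905 (Pot WtP E0P nodes_boundP)
open scoped ComplexConjugate

namespace Vale.Agent.P030.AR

open Vale.Agent.P030.T

/-- tree, walls, radii of the cusp circles -/
structure Geo (N n : ℕ) where
  TU : WTree (Fin n) (Fin N)
  w : Fin n → Wall
  ρ : Fin 4 → ℝ
  ρ_pos : ∀ c, 0 < ρ c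
  s01 : ρ 0 + ρ 1 < 1 / 2
  s12 : ρ 1 + ρ 2 < 1 / 2
  s3 : 1 < ρ 3

/-- frames of the upper cells, on open sets which contain the closed upper half plane without the
cusps -/
structure Frs (N : ℕ) where
  U : Fin N → Set ℂ
  isOpen_U : ∀ k, IsOpen (U k)
  mem : ∀ k z, 0 < z.im ∨ (z.im = 0 ∧ z.re ≠ 1 ∧ z.re ≠ 1 / 2 ∧ z.re ≠ 0) → z ∈ U k
  S : Fin N → ℂ → Matrix (Fin 8) (Fin 8) ℂ
  uni : ∀ k, ∀ z ∈ U k, Unitri (S k z)
  hol : ∀ k b c, DifferentiableOn ℂ (fun z => S k z b c) (U k)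

namespace Geo
variable {N n : ℕ} (t : Geo N n) (F : Frs N) (d : DiscPk)

/-- the table with trivial constants, to reuse the geometric lemmas -/
def tab : GTab N n where
  TU := t.TU
  w := t.w
  ρ := t.ρ
  ρ_pos := t.ρ_pos
  s01 := t.s01
  s12 := t.s12
  s3 := t.s3
  B := fun _ => 1
  cst := fun _ => ⟨fun i j _ h => Matrix.one_apply_ne h.ne', fun i _ => Matrix.one_apply_eq i,
    fun j h => Matrix.one_apply_ne h.ne'⟩
  kl := fun _ => by
    rw [Matrix.one_apply_ne (show (6 : Fin 8) ≠ 7 by decide), map_zero, mul_zero, Complex.zero_re]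
  kl0 := fun _ => Or.inl (by rw [Matrix.one_apply_eq]; exact one_ne_zero)

/-- the top data -/
noncomputable def top : TopN N n 8 where
  TU := t.TU
  w := t.w
  ρ := t.ρ
  ρ_pos := t.ρ_pos
  s01 := t.s01
  s12 := t.s12
  s3 := t.s3
  Uu := F.U
  open_u := F.isOpen_U
  reg_u := fun k z h1 h2 _ => F.mem k z (by
    rcases h2.lt_or_eq with h | h
    · exact Or.inl h
    · exact Or.inr ⟨h.symm, t.tab.real_ne h1 h.symm⟩)
  Su := F.S
  uni_u := F.uni
  hol_u := F.hol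
  Ud := VZ
  open_d := isOpen_VZ
  reg_d := t.tab.disc_VZ
  ε1 := 1 / 2
  ε1_pos := by norm_num
  ε1_lt := by norm_num
  reg_3 := t.tab.out_VZ
  Sd := d.S
  uni_d := d.uni
  hol_d := d.hol
  lim := d.lim

end Geo

/-- the zero patterns, as vanishing entries -/
structure GPat {N : ℕ} (F : Frs N) (d : DiscPk) where
  /-- two upper cells -/
  pI : Fin N → Fin N → Fin 8 → Fin 8 → Prop
  hI : ∀ k k' z, z ∈ F.U k → z ∈ F.U k' → ∀ b c, ¬ pI k k' b c →
    (F.S k z b ᵥ* (F.S k' z)⁻¹) c = 0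
  /-- upper cell and its mirror image on the interval `q` -/
  pR : Fin N → Fin 4 → Fin 8 → Fin 8 → Prop
  hR : ∀ k q z, z ∈ Sq q → z ∈ F.U k → conj z ∈ F.U k → ∀ b c, ¬ pR k q b c →
    (F.S k z b ᵥ* ((F.S k (conj z)).map conj)⁻¹) c = 0
  /-- cusp circles : `kc c` = the cell around the disc -/
  kc : Fin 4 → Fin N
  pC : Fin 4 → Fin 8 → Fin 8 → Prop
  up : ∀ c z, yz z ∈ RY c → z ∈ F.U (kc c) → ∀ b b', ¬ pC c b b' →
    (F.S (kc c) z b ᵥ* (d.S c z)⁻¹) b' = 0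
  dn : ∀ c z, yz z ∈ RY c → z ∈ F.U (kc c) → ∀ b b', ¬ pC c b b' →
    (d.S c z b ᵥ* (F.S (kc c) z)⁻¹) b' = 0

namespace GPat
variable {N n : ℕ} {F : Frs N} {d : DiscPk} (Q : GPat F d)

/-- the patterns in the form of `TopN.cond` -/
noncomputable def pat (t : Geo N n) : (t.top F d).Pat where
  pR := fun z k b c => Q.pR k (FPat.qz z) b c
  pI := Q.pI
  pC := fun c k b b' => k = Q.kc c → Q.pC c b b'
  hR := by
    intro z hz hi k hk b c hn
    filter_upwards [FPat.eventually_Sq (t.tab.real_ne hz hi)] with z' hz' h1 h2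
    exact Q.hR k _ z' hz' h1 h2 b c hn
  hI := by
    intro z hz hi k k' hk hk' b c hn
    exact Eventually.of_forall fun z' h1 h2 => Q.hI k k' z' h1 h2 b c hn
  hC1 := by
    intro c z hz hi k _ b b' hn
    rw [Classical.not_imp] at hn
    obtain ⟨rfl, hn⟩ := hn
    filter_upwards [H352.ev_RY t.ρ_pos t.s01 t.s12 t.s3 hz hi] with z' hy h1 _
    exact Q.up c z' hy h1 b b' hn
  hC2 := by
    intro c z hz hi k _ b b' hn
    rw [Classical.not_imp] at hn
    obtain ⟨rfl, hn⟩ := hn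
    filter_upwards [H352.ev_RY t.ρ_pos t.s01 t.s12 t.s3 hz hi] with z' hy h1 _
    exact Q.dn c z' hy h1 b b' hn
  hC3 := by
    intro c z hz hi k _ b b' hn
    rw [Classical.not_imp] at hn
    obtain ⟨rfl, hn⟩ := hn
    filter_upwards [ev_RY_conj t.ρ_pos t.s01 t.s12 t.s3 hz hi] with z' hy h1 h2
    have h2' : conj z' ∈ VZ c := conj_mem_VZ.2 h2
    have h3 := Q.up c (conj z') hy h1 b b' hn
    have h4 := d.real c (conj z') h2'
    rw [Complex.conj_conj] at h4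
    change TopN.tr ((F.S (Q.kc c) (conj z')).map conj) (d.S c z') b b' = 0
    rw [h4, TopN.tr_conj (d.uni c _ h2').isUnit]
    unfold TopN.tr
    rw [h3, map_zero]
  hC4 := by
    intro c z hz hi k _ b b' hn
    rw [Classical.not_imp] at hn
    obtain ⟨rfl, hn⟩ := hn
    filter_upwards [ev_RY_conj t.ρ_pos t.s01 t.s12 t.s3 hz hi] with z' hy h1 h2
    have h2' : conj z' ∈ VZ c := conj_mem_VZ.2 h2
    have h3 := Q.dn c (conj z') hy h1 b b' hn
    have h4 := d.real c (conj z') h2'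
    rw [Complex.conj_conj] at h4
    change TopN.tr (d.S c z') ((F.S (Q.kc c) (conj z')).map conj) b b' = 0
    have h1' : conj z' ∈ F.U (Q.kc c) := h1
    rw [h4, TopN.tr_conj (F.uni _ _ h1').isUnit]
    unfold TopN.tr
    rw [h3, map_zero]

end GPat

/-- the totals of the 17 groups in the rows of the disc frames, coordinates changed by `R` -/
structure TotR (R : Matrix (Fin 8) (Fin 8) ℂ) (d : DiscPk) {P : Par} {r : Gp → ℝ}
    (T : Tot P r) where
  Lv : Gp → Fin 8 → Prop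
  ex : ∀ g, ∃ B : ℝ, ∀ t : ℂ, ‖t‖ = r g → ∃ y : Fin 8 → ℂ,
    R *ᵥ (∑ g', ((T.al g g' : ℝ) : ℂ) • tupC g' t) = y ᵥ* d.S g.cusp (Sc g.cusp t) ∧
      ∀ b, ‖y b‖ ≤ B ∧ (y b = 0 ∨ Lv g b)

/-- **route N, top theorem, arbitrary frames and coordinates** -/
theorem stAR_G {N n : ℕ} (P : Par) (c0 : ℕ) (hcard : ∑ g : Gp, P.ht g = 8 * P.D0)
    (hD0 : 0 < P.D0) (r : Gp → ℝ) (hr : ∀ g, 0 < r g) (hr1 : ∀ g, r g < 1) (T : Tot P r)
    (t : Geo N n) (F : Frs N) (d : DiscPk) (Q : GPat F d)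
    (hrad : ∀ g, Rad t.ρ g.cusp (r g)) {R : Matrix (Fin 8) (Fin 8) ℂ} (hR : R.det ≠ 0)
    (K : TotR R d T) (μ : Fin 8 → Pot) (γ : Fin 8 → ℝ)
    (hsym : ∀ b z, WtP (fun _ => P.D0) μ γ b (conj z) = WtP (fun _ => P.D0) μ γ b z)
    (n1 : ∀ z ∈ Dom t.ρ, z.im = 0 → ∀ b c, Q.pR (can (fun j => (t.w j).fn) t.TU z) (FPat.qz z) b c →
      WtP (fun _ => P.D0) μ γ c z ≤ WtP (fun _ => P.D0) μ γ b z)
    (n2 : Edges (fun j => (t.w j).fn)
      (fun k k' z => ∀ b c, (Q.pI k k' b c ∨ Q.pI k' k b c) →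
        WtP (fun _ => P.D0) μ γ c z ≤ WtP (fun _ => P.D0) μ γ b z)
      {z | 0 ≤ z.im ∧ z ∈ Dom t.ρ} t.TU)
    (n3 : ∀ c z, ‖z - cen c‖ = t.ρ c → 0 ≤ z.im →
      can (fun j => (t.w j).fn) t.TU z = Q.kc c ∧ ∀ b b', Q.pC c b b' →
        WtP (fun _ => P.D0) μ γ b' z ≤ WtP (fun _ => P.D0) μ γ b z)
    (ω : Gp → ℝ)
    (n4 : ∀ g, ∀ s : ℂ, ‖s‖ = r g → ∀ b, K.Lv g b →
      WtP (fun _ => P.D0) μ γ b (Sc g.cusp s) ≤ ω g) :
    StAR P c0 (E0P (fun _ => P.D0) μ γ - Vale.Agent.P030.H866.Qm P r ω) := by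
  set W := WtP (fun _ => P.D0) μ γ with hW
  have hC : (t.top F d).sharp.toWD.Cond W := by
    refine (t.top F d).cond (Q.pat t) hsym ?_ n2 ?_
    · intro z hz hi b c hp
      exact n1 z hz hi b c hp
    · intro c z hz hi b b' hp
      obtain ⟨h1, h2⟩ := n3 c z hz hi
      exact h2 b b' (hp h1)
  have hWc : ∀ b, Continuous (W b) := fun b =>
    (continuous_const.mul (μ b).cont).add continuous_const
  refine stAR_of_det P c0 hcard hD0 r hr hr1 T R hR (t.top F d).sharp.toWD hWc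
    (detB_of_pot _ P.D0 μ γ hC) ω ?_
  intro g
  obtain ⟨B, hB⟩ := K.ex g
  refine ⟨B, fun s hs i hi => ?_⟩
  have hic : i = .cu g.cusp := by
    refine only_cu (t.top F d) (c := g.cusp) ?_ hi
    by_cases hc : g.cusp = 3
    · rw [if_pos hc, hc]
      have h := hrad g
      rw [hc] at h
      exact Sc_out (t.top F d) (hr g) h hs
    · rw [if_neg hc]
      exact Sc_in (t.top F d) hc (hr g) (hr1 g) (hrad g) hs
  subst hic
  obtain ⟨y, hy, hb⟩ := hB s hs
  exact ⟨y, hy, fun b => ⟨(hb b).1, (hb b).2.imp id fun h => n4 g s hs b h⟩⟩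

/-- the frames of helper265's flat matrix -/
noncomputable def frsP {N : ℕ} {X : Fin 8 → ℂ → Fin 8 → ℂ} (hX : YD X)
    (B : Fin N → Matrix (Fin 8) (Fin 8) ℂ) (hB : ∀ k, Cst (B k))
    (h1 : ∀ k, 0 ≤ (B k 6 6 * conj (B k 6 7)).re) (h2 : ∀ k, B k 6 6 ≠ 0 ∨ B k 6 7 ≠ 0) :
    Frs N where
  U := fun k => Uc X (B k)
  isOpen_U := fun k => isOpen_Uc hX (B k)
  mem := fun k _ hz => mem_Uc hX (h1 k) (h2 k) hz
  S := fun k z => frm (Pz X z) (B k)
  uni := fun k z hz => frm_unitri (Pz_adap hX hz.1) (hB k)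
  hol := fun k b c => frm_diff hX (B k) b c

end Vale.Agent.P030.AR
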