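import Vale.Agent.P030.H462.Ev

/-!
# P030, archimedean side: the eight global flat vectors (definitions and statements)

Order of the coordinates as in `T/Defs` : `1, l, L, Li2, f6, f7, (1-u) F, (1-u) θF`.
Basis on the upper half plane `Up` (index `Fin 8`): `0 = e` (main), `1 = a`, `2 = c`, `3 = d`,
`4 = g`, `5 = h`, `6 = A0`, `7 = A3` (`d, g, h` = coordinate vectors number 3, 4, 5).

`IsV V` : `V` is holomorphic on `Up` and has the expansions `gl0 .. gl3` near the four cusps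
(`T` = logarithm, `t` = local parameter of `T/Defs`).  The table is helper60's (#13035), in the
gauge of `T/Defs`; checked numerically on all overlaps to `1e-15`.
-/

open PowerSeries

namespace Vale.Agent.P030.AR

open Vale.Agent.P030.T Vale.Agent.P030.H462

noncomputable section

/-- the upper half plane -/
def Up : Set ℂ := {u | 0 < u.im}

/-- evaluation of rational power series -/
def evq (f : ℚ⟦X⟧) (t : ℂ) : ℂ := ev (Rat.castHom ℂ) f t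

/-- `log 2`, `π`, `G / 2` as complex numbers -/
def l2 : ℂ := (Real.log 2 : ℝ)
def pc : ℂ := (Real.pi : ℝ)
def xc : ℂ := (Gc / 2 : ℝ)

/-- the tuple of the group `g` at `x = G / 2` as a function on the unit disc -/
def tupC (g : Gp) (t : ℂ) : Fin 8 → ℂ := fun j => evq (tup0 g j) t + xc * evq (tup1 g j) t

/-- evaluation of a tuple -/
def evt (f : Fin 8 → ℚ⟦X⟧) (t : ℂ) : Fin 8 → ℂ := fun j => evq (f j) t

/-! ### the log-free partners of the groups -/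

/-- `Li2 (-t)` -/
def li2m : ℚ⟦X⟧ := PowerSeries.mk fun n => if n = 0 then 0 else (-1) ^ n / (n : ℚ) ^ 2

/-- `R` : `n² R_n = (n-1)² R_{n-2} + r_n`, `R_0 = 0`,
`r = 2 - 2 K + 2 X² K - 4 θM + 4 X² (θM + M)` -/
def serRr : ℚ⟦X⟧ :=
  C 2 - sc 2 serK + sc 2 (X ^ 2 * serK) - sc 4 (th serM) + sc 4 (X ^ 2 * (th serM + serM))

def cR : ℕ → ℚ
  | 0 => 0
  | 1 => coeff 1 serRr
  | n + 2 => (((n : ℚ) + 1) ^ 2 * cR n + coeff (n + 2) serRr) / ((n : ℚ) + 2) ^ 2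

def serR : ℚ⟦X⟧ := PowerSeries.mk cR

/-- at `c0` : `zL = zL0 + T zab`, `zM = zM0 + T z8` -/
def zL0 : Fin 8 → ℚ⟦X⟧ := ![0, 0, 1, 0, lgp, lgm, 0, 0]
def zM0 : Fin 8 → ℚ⟦X⟧ := ![0, 0, 0, 0, 0, 0, (1 - X) * serM, (1 - X) * (th serM + serK)]

/-- at `c1` : `wL = wL0 + T g`, `wM = wM0 + T w8 + ((1 - t²)/(2t)) K e_7` -/
def wL0 : Fin 8 → ℚ⟦X⟧ := ![0, 0, 1, lgp + lgm, lgm, -lgm, 0, 0]
def wM0 : Fin 8 → ℚ⟦X⟧ := ![0, 0, 0, 0, 0, 0, serM, tw serM]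

/-- at `c2` : `vE = vE0 + (T/2) (h - g)`, `vM = vM0 + T v8`, `vO = vO0 + T vb + (T²/2) v2` -/
def vE0 : Fin 8 → ℚ⟦X⟧ := ![0, 1, 0, 0, sc (1 / 2) lgm + lgp, sc (1 / 2) lgm, 0, 0]
def vM0 : Fin 8 → ℚ⟦X⟧ :=
  ![0, 0, 0, 0, 0, 0, -((1 - X) * serM), (1 - X) * (dd (X * serM) + serK)]
def vO0 : Fin 8 → ℚ⟦X⟧ :=
  ![1, 0, lgm, -li2, li2m - li2 + integ (geoa * lgm), sc (1 / 2) (lgm ^ 2),
    -((1 - X) * serB), (1 - X) * dd (X * serB)]

/-- at `c3` : `xE = xE0 - (T/2) (g + h)`, `xM = xM0 + T k3`, `xO = xO0 + T x1 + T² x2` -/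
def xE0 : Fin 8 → ℚ⟦X⟧ := ![0, 1, 0, 0, sc (1 / 2) lgm, -sc (1 / 2) lgm, 0, 0]
def xM0 : Fin 8 → ℚ⟦X⟧ :=
  ![0, 0, 0, 0, 0, 0, -(X * serM), -(X * tw serM + sc (1 / 2) ((1 - X ^ 2) * serK))]
def xO0 : Fin 8 → ℚ⟦X⟧ :=
  ![1, 0, -lgm, li2 - li2m - sc 2 (integ (geo2 * lgm)), li2 - sc (1 / 2) (lgm ^ 2),
    sc (1 / 2) (lgm ^ 2), sc (1 / 8) (X * serR),
    sc (1 / 8) (X * tw serR + (1 - X ^ 2) * serM)]

/-! ### the global vectors in terms of the local ones -/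

/-- constant coordinate vectors -/
def dv : Fin 8 → ℂ := Pi.single 3 1
def gv : Fin 8 → ℂ := Pi.single 4 1
def hv : Fin 8 → ℂ := Pi.single 5 1

/-- near `c0` : `t = u`, `T = log u` -/
def gl0 (T t : ℂ) : Fin 8 → Fin 8 → ℂ :=
  ![tupC .z1 t + l2 • tupC .zl t,
    tupC .zl t,
    evt zL0 t + T • dv,
    dv, gv, hv,
    (pc / 2) • tupC .z8 t,
    (2 * l2 - T) • tupC .z8 t - evt zM0 t]

/-- `wM`, `wL` -/
def wMv (T t : ℂ) : Fin 8 → ℂ :=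
  evt wM0 t + T • tupC .w8 t + ((1 - t ^ 2) / (2 * t) * evq serK t) • Pi.single 7 1
def wLv (T t : ℂ) : Fin 8 → ℂ := evt wL0 t + T • gv

/-- near `c1` : `t = (u+1)/(u-1)`, `T = log (-t)` -/
def gl1 (T t : ℂ) : Fin 8 → Fin 8 → ℂ :=
  ![tupC .w1 t + l2 • tupC .wl t + (pc ^ 2 / 16) • tupC .wy t,
    tupC .wl t + wLv T t + (l2 / 2) • (gv - hv),
    wLv T t + (Complex.I * pc) • dv + l2 • (gv - hv),
    dv, gv, hv,
    (2 * l2) • tupC .w8 t - wMv T t,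
    pc • tupC .w8 t - (2 * Complex.I) • ((2 * l2) • tupC .w8 t - wMv T t)]

/-- `vE`, `A1`, `A2` at `c2` -/
def vEv (T t : ℂ) : Fin 8 → ℂ := evt vE0 t + (T / 2) • (hv - gv)
def vMv (T t : ℂ) : Fin 8 → ℂ := evt vM0 t + T • tupC .v8 t
def A1v (T t : ℂ) : Fin 8 → ℂ := vMv T t - (2 * l2) • tupC .v8 t
def A2v (t : ℂ) : Fin 8 → ℂ := (pc / 2) • tupC .v8 t

/-- near `c2` : `t = 1/u`, `T = log (-t)` -/
def gl2 (T t : ℂ) : Fin 8 → Fin 8 → ℂ :=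
  ![(evt vO0 t + T • tupC .vb t + (T ^ 2 / 2) • tupC .v2 t) + l2 • vEv T t
      - (pc ^ 2 / 6) • dv - (pc ^ 2 / 4) • gv - (pc / 8) • A1v T t - xc • tupC .v8 t,
    vEv T t + (Complex.I * pc) • gv,
    tupC .vb t + T • tupC .v2 t + (Complex.I * pc) • (dv + gv),
    dv, gv, hv,
    A2v t + Complex.I • ((2 * Complex.I) • A2v t - A1v T t),
    (2 * Complex.I) • A2v t - A1v T t]

/-- `k3`, `xM`, `x1 + 2 T x2`, `xE` at `c3` -/
def k3v (t : ℂ) : Fin 8 → ℂ := tupC .xl t + gv - hv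
def xMv (T t : ℂ) : Fin 8 → ℂ := evt xM0 t + T • k3v t
def x1v (T t : ℂ) : Fin 8 → ℂ := tupC .x1 t + (2 * T) • tupC .x2 t
def xEv (T t : ℂ) : Fin 8 → ℂ := evt xE0 t - (T / 2) • (gv + hv)

/-- near `c3` : `t = (u-1)/(u+1)`, `T = log (-t)` -/
def gl3 (T t : ℂ) : Fin 8 → Fin 8 → ℂ :=
  ![(evt xO0 t + T • tupC .x1 t + T ^ 2 • tupC .x2 t) + l2 • xEv T t + l2 • x1v T t
      + (3 * l2 / 4) • xMv T t - (l2 ^ 2 / 2 + pc ^ 2 / 48) • k3v t
      + (pc ^ 2 / 6) • dv + (pc ^ 2 / 12) • gv,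
    xEv T t + (l2 / 2) • (gv - hv),
    -x1v T t + l2 • (gv - hv) - (1 / 4 : ℂ) • xMv T t,
    dv, gv, hv,
    (2 * l2) • k3v t - xMv T t,
    pc • k3v t]

/-! ### the statements -/

/-- `V` = the eight global flat vectors on the upper half plane -/
structure IsV (V : Fin 8 → ℂ → Fin 8 → ℂ) : Prop where
  hol : ∀ i j, DifferentiableOn ℂ (fun u => V i u j) Up
  at0 : ∀ u ∈ Up, ‖u‖ < 1 → ∀ i, V i u = gl0 (Complex.log u) u i
  at1 : ∀ u ∈ Up, ‖(u + 1) / (u - 1)‖ < 1 → ∀ i,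
    V i u = gl1 (Complex.log (-((u + 1) / (u - 1)))) ((u + 1) / (u - 1)) i
  at2 : ∀ u ∈ Up, 1 < ‖u‖ → ∀ i, V i u = gl2 (Complex.log (-(1 / u))) (1 / u) i
  at3 : ∀ u ∈ Up, ‖(u - 1) / (u + 1)‖ < 1 → ∀ i,
    V i u = gl3 (Complex.log (-((u - 1) / (u + 1)))) ((u - 1) / (u + 1)) i

/-- the target of the function layer -/
def ExistsV : Prop := ∃ V, IsV V

/-- the four real intervals -/
def Iv : Fin 4 → Set ℝ := ![Set.Iio (-1), Set.Ioo (-1) 0, Set.Ioo 0 1, Set.Ioi 1]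

/-- the plane cut along the real axis outside the interval `q` -/
def OmI (q : Fin 4) : Set ℂ := {u | u.im = 0 → u.re ∈ Iv q}

/-- complex conjugation of the boundary values on the interval `q` :
`conj (V i) = Σ j, Rf q i j • V j` on `Iv q` -/
def Rf : Fin 4 → Matrix (Fin 8) (Fin 8) ℂ
  | 0 => !![1, 0, 0, 0, 0, 0, 0, 0;
            0, 1, 0, 0, -2 * pc * Complex.I, 0, 0, 0;
            0, 0, 1, -2 * pc * Complex.I, -2 * pc * Complex.I, 0, 0, 0;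
            0, 0, 0, 1, 0, 0, 0, 0;
            0, 0, 0, 0, 1, 0, 0, 0;
            0, 0, 0, 0, 0, 1, 0, 0;
            0, 0, 0, 0, 0, 0, -3, 2 * Complex.I;
            0, 0, 0, 0, 0, 0, -4 * Complex.I, -3]
  | 1 => !![1, 0, 0, 0, 0, 0, 0, 0;
            0, 1, 0, 0, 0, 0, 0, 0;
            0, 0, 1, -2 * pc * Complex.I, 0, 0, 0, 0;
            0, 0, 0, 1, 0, 0, 0, 0;
            0, 0, 0, 0, 1, 0, 0, 0;
            0, 0, 0, 0, 0, 1, 0, 0;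
            0, 0, 0, 0, 0, 0, 1, 0;
            0, 0, 0, 0, 0, 0, 4 * Complex.I, 1]
  | 2 => 1
  | 3 => !![1, 0, -2 * pc * Complex.I, 0, pc * Complex.I * l2,
              -2 * pc * Complex.I * (l2 / 2 - Complex.I * pc), pc * Complex.I / 2, pc / 2;
            0, 1, 0, 0, -pc * Complex.I, -pc * Complex.I, 0, 0;
            0, 0, 1, 0, 0, -2 * pc * Complex.I, 0, 0;
            0, 0, 0, 1, 0, 0, 0, 0;
            0, 0, 0, 0, 1, 0, 0, 0;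
            0, 0, 0, 0, 0, 1, 0, 0;
            0, 0, 0, 0, 0, 0, 1, -2 * Complex.I;
            0, 0, 0, 0, 0, 0, 0, 1]

/-- continuation through the interval `q` -/
structure IsW (V : Fin 8 → ℂ → Fin 8 → ℂ) (q : Fin 4) (W : Fin 8 → ℂ → Fin 8 → ℂ) : Prop where
  hol : ∀ i j, DifferentiableOn ℂ (fun u => W i u j) (OmI q)
  up : ∀ i, ∀ u ∈ Up, W i u = V i u
  low : ∀ i, ∀ u : ℂ, u.im < 0 → ∀ j,
    W i u j = ∑ k, (starRingEnd ℂ) (Rf q i k) * (starRingEnd ℂ) (V k ((starRingEnd ℂ) u) j)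

/-- the target of the reflection row -/
def RefV : Prop := ∀ V, IsV V → ∀ q, ∃ W, IsW V q W

end

end Vale.Agent.P030.AR
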