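import Vale.Agent.P030.AR.NTop
import Vale.Agent.P030.H265.Flat
import Vale.Agent.P030.H639.N8b
import Vale.Agent.P030.H352.DiscPat

/-!
# P030, route N: the instance of `TopN` with the flat frames of the upper half plane (helper991)

`GTab N n` = upper tree, walls, radii, constants `B k` of the cells (helper265's layout);
`DiscPk` = frames of the four cusp discs (real rows); `FPat` = zero patterns of the transitions
(helper639's `Rel`, `Zr`).  `FPat.pat` feeds `TopN.cond`.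
-/

open Matrix Set Filter Topology
open Vale.Agent.P030.H580 Vale.Agent.P030.H152
open Vale.Agent.P030.H265 (YD OmP mem_OmP Sq yz Pz Pm' RqC Uc kap mem_Uc isOpen_Uc frm frm_diff
  frm_unitri Pz_adap Pm'_adap Pz_strip Adap Cst kF isOpen_OmP)
open Vale.Agent.P030.H639 (Rel Zr trans_zero cj frm_cj kF_cj cst_cj)
open scoped ComplexConjugate

namespace Vale.Agent.P030.AR

/-- tree, walls, radii of the cusp circles and constants of the frames -/
structure GTab (N n : ℕ) where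
  TU : WTree (Fin n) (Fin N)
  w : Fin n → Wall
  ρ : Fin 4 → ℝ
  ρ_pos : ∀ c, 0 < ρ c
  s01 : ρ 0 + ρ 1 < 1 / 2
  s12 : ρ 1 + ρ 2 < 1 / 2
  s3 : 1 < ρ 3
  B : Fin N → Matrix (Fin 8) (Fin 8) ℂ
  cst : ∀ k, Cst (B k)
  kl : ∀ k, 0 ≤ (B k 6 6 * conj (B k 6 7)).re
  kl0 : ∀ k, B k 6 6 ≠ 0 ∨ B k 6 7 ≠ 0

/-- the domains of the disc frames -/
def VZ : Fin 4 → Set ℂ
  | 0 => {z | 1 / 2 < z.re}
  | 1 => {z | ‖1 - 2 * z‖ < 1}
  | 2 => {z | z.re < 1 / 2}
  | 3 => {z | 1 < ‖1 - 2 * z‖}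

/-- the frames of the discs -/
structure DiscPk where
  S : Fin 4 → ℂ → Matrix (Fin 8) (Fin 8) ℂ
  uni : ∀ c, ∀ z ∈ VZ c, Unitri (S c z)
  hol : ∀ c b b', DifferentiableOn ℂ (fun z => S c z b b') (VZ c)
  lim : ∀ b, ∃ c : Fin 8 → ℂ, Tendsto (fun z => S 3 z b) (cocompact ℂ) (𝓝 c)
  real : ∀ c z, z ∈ VZ c → S c (conj z) = (S c z).map conj

theorem isOpen_VZ (c : Fin 4) : IsOpen (VZ c) := by
  have h : Continuous fun z : ℂ => ‖1 - 2 * z‖ := by fun_prop
  fin_cases c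
  · exact isOpen_lt continuous_const Complex.continuous_re
  · exact isOpen_lt h continuous_const
  · exact isOpen_lt Complex.continuous_re continuous_const
  · exact isOpen_lt continuous_const h

theorem conj_mem_VZ {c : Fin 4} {z : ℂ} : conj z ∈ VZ c ↔ z ∈ VZ c := by
  have h : ‖1 - 2 * conj z‖ = ‖1 - 2 * z‖ := by
    rw [← Complex.norm_conj (1 - 2 * z), map_sub, map_mul, map_one, map_ofNat]
  fin_cases c
  · simp [VZ]
  · simp only [VZ, mem_ofPred_eq, h]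
  · simp [VZ]
  · simp only [VZ, mem_ofPred_eq, h]

theorem norm_two_sub (z : ℂ) : ‖1 - 2 * z‖ = 2 * ‖z - 1 / 2‖ := by
  have e : 1 - 2 * z = -(2 * (z - 1 / 2)) := by ring
  rw [e, norm_neg, norm_mul]
  norm_num

/-- the lower halves of the cusp circles -/
theorem ev_RY_conj {ρ : Fin 4 → ℝ} (hρ : ∀ c, 0 < ρ c) (s01 : ρ 0 + ρ 1 < 1 / 2)
    (s12 : ρ 1 + ρ 2 < 1 / 2) (s3 : 1 < ρ 3) {c : Fin 4} {z : ℂ} (hz : ‖z - cen c‖ = ρ c)
    (him : z.im < 0) : ∀ᶠ z' in 𝓝 z, yz (conj z') ∈ RY c := by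
  have h1 := H352.ev_RY hρ s01 s12 s3 (z := conj z) (c := c)
    (by rw [H352.cen_conj]; exact hz) (by rw [Complex.conj_im]; linarith)
  have h2 : Filter.Tendsto conj (𝓝 z) (𝓝 (conj z)) := Complex.continuous_conj.tendsto z
  exact h2.eventually h1

namespace GTab
variable {N n : ℕ} (t : GTab N n)

theorem disc_VZ (c : Fin 4) (hc : c ≠ 3) (z : ℂ) (hz : ‖z - cen c‖ ≤ t.ρ c) : z ∈ VZ c := by
  have r0 := t.ρ_pos 0
  have r1 := t.ρ_pos 1
  have r2 := t.ρ_pos 2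
  have a1 := t.s01
  have a2 := t.s12
  fin_cases c
  · have h : ‖z - 1‖ ≤ t.ρ 0 := hz
    have h2 := (abs_le.1 ((Complex.abs_re_le_norm (z - 1)).trans h)).1
    have h3 : (z - 1).re = z.re - 1 := by simp
    change 1 / 2 < z.re
    linarith
  · have h : ‖z - 1 / 2‖ ≤ t.ρ 1 := hz
    change ‖1 - 2 * z‖ < 1
    rw [norm_two_sub]
    linarith
  · have h : ‖z - 0‖ ≤ t.ρ 2 := hz
    rw [sub_zero] at h
    have h2 := (abs_le.1 ((Complex.abs_re_le_norm z).trans h)).2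
    change z.re < 1 / 2
    linarith
  · exact absurd rfl hc

theorem out_VZ (z : ℂ) (hz : t.ρ 3 ^ 2 - 1 / 2 ≤ ‖z - 1 / 2‖ ^ 2) : z ∈ VZ 3 := by
  change 1 < ‖1 - 2 * z‖
  rw [norm_two_sub]
  have h := t.s3
  have h0 := norm_nonneg (z - 1 / 2)
  nlinarith

/-- a real point of the domain is not a cusp -/
theorem real_ne {z : ℂ} (hz : z ∈ Dom t.ρ) (hi : z.im = 0) :
    z.re ≠ 1 ∧ z.re ≠ 1 / 2 ∧ z.re ≠ 0 := by
  obtain ⟨h0, h1, h2, -⟩ := hz
  have hz' : z = (z.re : ℂ) := by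
    apply Complex.ext <;> simp [hi]
  refine ⟨fun h => ?_, fun h => ?_, fun h => ?_⟩
  · rw [h] at hz'
    rw [hz'] at h0
    have := t.ρ_pos 0
    simp at h0
    linarith
  · rw [h] at hz'
    rw [hz'] at h1
    have := t.ρ_pos 1
    simp at h1
    linarith
  · rw [h] at hz'
    rw [hz'] at h2
    have := t.ρ_pos 2
    simp at h2
    linarith

variable {X : Fin 8 → ℂ → Fin 8 → ℂ} (hX : YD X) (d : DiscPk)

/-- the top data -/
noncomputable def top : TopN N n 8 where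
  TU := t.TU
  w := t.w
  ρ := t.ρ
  ρ_pos := t.ρ_pos
  s01 := t.s01
  s12 := t.s12
  s3 := t.s3
  Uu := fun k => Uc X (t.B k)
  open_u := fun k => isOpen_Uc hX (t.B k)
  reg_u := fun k z h1 h2 _ => mem_Uc hX (t.kl k) (t.kl0 k) (by
    rcases h2.lt_or_eq with h | h
    · exact Or.inl h
    · exact Or.inr ⟨h.symm, t.real_ne h1 h.symm⟩)
  Su := fun k z => frm (Pz X z) (t.B k)
  uni_u := fun k z hz => frm_unitri (Pz_adap hX hz.1) (t.cst k)
  hol_u := fun k b c => frm_diff hX (t.B k) b c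
  Ud := VZ
  open_d := isOpen_VZ
  reg_d := t.disc_VZ
  ε1 := 1 / 2
  ε1_pos := by norm_num
  ε1_lt := by norm_num
  reg_3 := t.out_VZ
  Sd := d.S
  uni_d := d.uni
  hol_d := d.hol
  lim := d.lim

end GTab

/-- the zero patterns -/
structure FPat {N n : ℕ} (t : GTab N n) (X : Fin 8 → ℂ → Fin 8 → ℂ) (d : DiscPk) where
  /-- two upper cells -/
  pI : Fin N → Fin N → Fin 8 → Fin 8 → Prop
  hI : ∀ k k', (∀ b c, pI k k' b c) ∨
    ∃ M, Rel (t.B k) 1 (t.B k') M ∧ ∀ b c, ¬ pI k k' b c → Zr M (t.B k') b c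
  /-- upper cell and its mirror image on the interval `q` -/
  pR : Fin N → Fin 4 → Fin 8 → Fin 8 → Prop
  hR : ∀ k q, (∀ b c, pR k q b c) ∨
    ∃ M, Rel (t.B k) (RqC q) (cj (t.B k)) M ∧ ∀ b c, ¬ pR k q b c → Zr M (cj (t.B k)) b c
  /-- cusp circles : `kc c` = the cell around the disc -/
  kc : Fin 4 → Fin N
  pC : Fin 4 → Fin 8 → Fin 8 → Prop
  up : ∀ c z, yz z ∈ RY c → z ∈ Uc X (t.B (kc c)) → ∀ b b', ¬ pC c b b' →
    (frm (Pz X z) (t.B (kc c)) b ᵥ* (d.S c z)⁻¹) b' = 0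
  dn : ∀ c z, yz z ∈ RY c → z ∈ Uc X (t.B (kc c)) → ∀ b b', ¬ pC c b b' →
    (d.S c z b ᵥ* (frm (Pz X z) (t.B (kc c)))⁻¹) b' = 0

namespace FPat
variable {N n : ℕ} {t : GTab N n} {X : Fin 8 → ℂ → Fin 8 → ℂ} {d : DiscPk} (Q : FPat t X d)

/-- the interval of a real point -/
noncomputable def qz (z : ℂ) : Fin 4 := qy (yz z).re

theorem eventually_Sq {z : ℂ} (hz : z.re ≠ 1 ∧ z.re ≠ 1 / 2 ∧ z.re ≠ 0) :
    ∀ᶠ z' in 𝓝 z, z' ∈ Sq (qz z) := by
  obtain ⟨h1, h2, h3⟩ := hz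
  obtain ⟨q, hq⟩ : ∃ q, (yz z).re ∈ Jv q := by
    refine exists_Jv ?_ ?_ ?_
    · rw [H265.yz_re]; intro h; exact h1 (by linarith)
    · rw [H265.yz_re]; intro h; exact h2 (by linarith)
    · rw [H265.yz_re]; intro h; exact h3 (by linarith)
  have e : qz z = q := qy_of_mem hq
  rw [e]
  have hc : Continuous fun z : ℂ => (yz z).re := by
    unfold yz
    exact Complex.continuous_re.comp (by fun_prop)
  exact ((isOpen_Jv q).preimage hc).mem_nhds hq

theorem cj_eq (A : Matrix (Fin 8) (Fin 8) ℂ) : A.map (starRingEnd ℂ) = cj A := rfl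

theorem frm_mirror (z : ℂ) (B : Matrix (Fin 8) (Fin 8) ℂ) :
    (frm (Pz X (conj z)) B).map conj = frm (Pm' X z) (cj B) := by
  rw [cj_eq, ← frm_cj]
  rfl

/-- the patterns in the form of `TopN.cond` -/
noncomputable def pat (hX : YD X) : (t.top hX d).Pat where
  pR := fun z k b c => Q.pR k (qz z) b c
  pI := Q.pI
  pC := fun c k b b' => k = Q.kc c → Q.pC c b b'
  hR := by
    intro z hz hi k hk b c hn
    rcases Q.hR k (qz z) with h | ⟨M, hM, hZ⟩
    · exact absurd (h b c) hn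
    filter_upwards [eventually_Sq (t.real_ne hz hi)] with z' hz' h1 h2
    have h1' : z' ∈ Uc X (t.B k) := h1
    have h2' : conj z' ∈ Uc X (t.B k) := h2
    have hL : Pz X z' = RqC (qz z) * Pm' X z' := by
      ext i j
      rw [Matrix.mul_apply]
      exact Pz_strip hX (qz z) hz' i j
    have hk2 : kF (Pm' X z') ((cj (t.B k)) 6 6) ((cj (t.B k)) 6 7) ≠ 0 := by
      have e : Pm' X z' = cj (Pz X (conj z')) := rfl
      rw [e]
      have h3 : kF (cj (Pz X (conj z'))) ((cj (t.B k)) 6 6) ((cj (t.B k)) 6 7) =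
          conj (kF (Pz X (conj z')) (t.B k 6 6) (t.B k 6 7)) := kF_cj _ _ _
      rw [h3]
      exact (map_ne_zero _).2 h2'.2
    have h4 := trans_zero (Pm'_adap hX h2'.1) (cst_cj (t.cst k)) hM hL h1'.2 hk2 (hZ b c hn)
    change (frm (Pz X z') (t.B k) b ᵥ* ((frm (Pz X (conj z')) (t.B k)).map conj)⁻¹) c = 0
    rw [frm_mirror]
    exact h4
  hI := by
    intro z hz hi k k' hk hk' b c hn
    rcases Q.hI k k' with h | ⟨M, hM, hZ⟩
    · exact absurd (h b c) hn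
    refine Eventually.of_forall fun z' h1 h2 => ?_
    have h1' : z' ∈ Uc X (t.B k) := h1
    have h2' : z' ∈ Uc X (t.B k') := h2
    exact trans_zero (Pz_adap hX h1'.1) (t.cst k') hM (one_mul _).symm h1'.2 h2'.2 (hZ b c hn)
  hC1 := by
    intro c z hz hi k _ b b' hn
    rw [Classical.not_imp] at hn
    obtain ⟨rfl, hn⟩ := hn
    filter_upwards [H352.ev_RY t.ρ_pos t.s01 t.s12 t.s3 hz hi] with z' hy h1 _
    exact Q.up c z' hy h1 b b' hn
  hC2 := by
    intro c z hz hi k _ b b' hn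
    rw [Classical.not_imp] at hn
    obtain ⟨rfl, hn⟩ := hn
    filter_upwards [H352.ev_RY t.ρ_pos t.s01 t.s12 t.s3 hz hi] with z' hy h1 _
    exact Q.dn c z' hy h1 b b' hn
  hC3 := by
    intro c z hz hi k _ b b' hn
    rw [Classical.not_imp] at hn
    obtain ⟨rfl, hn⟩ := hn
    filter_upwards [ev_RY_conj t.ρ_pos t.s01 t.s12 t.s3 hz hi] with z' hy h1 h2
    have h2' : conj z' ∈ VZ c := conj_mem_VZ.2 h2
    have h3 := Q.up c (conj z') hy h1 b b' hn
    have h4 := d.real c (conj z') h2'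
    rw [Complex.conj_conj] at h4
    change TopN.tr ((frm (Pz X (conj z')) (t.B (Q.kc c))).map conj) (d.S c z') b b' = 0
    rw [h4, TopN.tr_conj (d.uni c _ h2').isUnit]
    unfold TopN.tr
    rw [h3, map_zero]
  hC4 := by
    intro c z hz hi k _ b b' hn
    rw [Classical.not_imp] at hn
    obtain ⟨rfl, hn⟩ := hn
    filter_upwards [ev_RY_conj t.ρ_pos t.s01 t.s12 t.s3 hz hi] with z' hy h1 h2
    have h2' : conj z' ∈ VZ c := conj_mem_VZ.2 h2
    have h3 := Q.dn c (conj z') hy h1 b b' hn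
    have h4 := d.real c (conj z') h2'
    rw [Complex.conj_conj] at h4
    change TopN.tr (d.S c z') ((frm (Pz X (conj z')) (t.B (Q.kc c))).map conj) b b' = 0
    have hu : Unitri (frm (Pz X (conj z')) (t.B (Q.kc c))) := by
      have h1' : conj z' ∈ Uc X (t.B (Q.kc c)) := h1
      exact frm_unitri (Pz_adap hX h1'.1) (t.cst _)
    rw [h4, TopN.tr_conj hu.isUnit]
    unfold TopN.tr
    rw [h3, map_zero]

end FPat

end Vale.Agent.P030.AR
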