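import Vale.Agent.P030.AR.NInst
import Vale.Agent.P030.H866.Final
import Vale.Agent.P030.H905.PotOf

/-!
# P030, route N: `StAR` from the table, the discs, the patterns and the inequalities (helper991)

Inputs: `GTab` (tree, walls, frames), `DiscPk` (disc frames), `FPat` (zero patterns), potentials
`μ b : Pot`, constants `γ b`, the three lists of inequalities of `TopN.cond`, the expansion of the
17 group totals in the rows of the disc frames (`TotPk`) and the values at the small circles.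
-/

open Matrix Set Filter Topology
open Vale.Agent.P030.H580 Vale.Agent.P030.H152
open Vale.Agent.P030.H265 (YD WallData colY)
open Vale.Agent.P030.H866 (Tot Sc DetB Loc stAR_of_det sigEquiv)
open Vale.Agent.P030.H905 (Pot WtP E0P nodes_boundP)
open scoped ComplexConjugate

namespace Vale.Agent.P030.AR

open Vale.Agent.P030.T

/-- the change of the coordinates as a matrix -/
noncomputable def Rc : Matrix (Fin 8) (Fin 8) ℂ :=
  !![1, 0, 0, 0, 0, 0, 0, 0;
     0, 1, 0, 0, 0, 0, 0, 0;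
     0, 0, 1, 0, 0, 0, 0, 0;
     0, 0, 0, 1, -1, 0, 0, 0;
     0, 0, 0, 0, 0, 1, 0, 0;
     0, 0, 0, 0, 1, 0, 0, 0;
     0, 0, 0, 0, 0, 0, 1, 0;
     0, 0, 0, 0, 0, 0, 0, 1]

theorem Rc_mulVec (v : Fin 8 → ℂ) : Rc *ᵥ v = colY v := by
  funext i
  fin_cases i <;> simp [Rc, colY, Matrix.mulVec, dotProduct, Fin.sum_univ_eight] <;> ring

theorem Rc_det : Rc.det ≠ 0 := by
  have h : Rc * !![1, 0, 0, 0, 0, 0, 0, 0;
     0, 1, 0, 0, 0, 0, 0, 0;
     0, 0, 1, 0, 0, 0, 0, 0;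
     0, 0, 0, 1, 0, 1, 0, 0;
     0, 0, 0, 0, 0, 1, 0, 0;
     0, 0, 0, 0, 1, 0, 0, 0;
     0, 0, 0, 0, 0, 0, 1, 0;
     0, 0, 0, 0, 0, 0, 0, 1] = 1 := by
    ext i j
    fin_cases i <;> fin_cases j <;>
      simp [Rc, Matrix.mul_apply, Fin.sum_univ_eight, Matrix.one_apply]
  intro h0
  have := congrArg Matrix.det h
  rw [Matrix.det_mul, h0, zero_mul, Matrix.det_one] at this
  exact zero_ne_one this

/-- the circles of the columns lie strictly inside the cusp discs -/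
def Rad (ρ : Fin 4 → ℝ) (c : Fin 4) (r : ℝ) : Prop :=
  match c with
  | 0 => r < ρ 0 * (1 - r)
  | 1 => r < 2 * ρ 1
  | 2 => r < ρ 2 * (1 - r)
  | 3 => 2 * r * ρ 3 < 1

section geo
variable {N n m : ℕ} (D : TopN N n m)

theorem Sc_in {c : Fin 4} (hc : c ≠ 3) {r : ℝ} (hr : 0 < r) (hr1 : r < 1) (h : Rad D.ρ c r)
    {t : ℂ} (ht : ‖t‖ = r) : ‖Sc c t - cen c‖ < D.ρ c := by
  have h1 : 1 - r ≤ ‖1 - t‖ := by
    have := norm_sub_norm_le (1 : ℂ) t
    rw [norm_one, ht] at this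
    exact this
  have h1' : 0 < ‖1 - t‖ := by linarith
  have h2 : (1 : ℂ) - t ≠ 0 := norm_pos_iff.1 h1'
  fin_cases c
  · have e : Sc 0 t - cen 0 = t / (1 - t) := by
      change (1 - t)⁻¹ - 1 = t / (1 - t)
      field_simp
      ring
    change ‖Sc 0 t - cen 0‖ < D.ρ 0
    rw [e, norm_div, ht, div_lt_iff₀ h1']
    have h3 : r < D.ρ 0 * (1 - r) := h
    have := D.ρ_pos 0
    nlinarith
  · have e : Sc 1 t - cen 1 = -t / 2 := by
      change (1 - t) / 2 - 1 / 2 = -t / 2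
      ring
    change ‖Sc 1 t - cen 1‖ < D.ρ 1
    rw [e, norm_div, norm_neg, ht]
    have h3 : r < 2 * D.ρ 1 := h
    have h4 : ‖(2 : ℂ)‖ = 2 := by norm_num
    rw [h4]
    linarith
  · have e : Sc 2 t - cen 2 = -(t / (1 - t)) := by
      change -t * (1 - t)⁻¹ - 0 = -(t / (1 - t))
      rw [div_eq_mul_inv]
      ring
    change ‖Sc 2 t - cen 2‖ < D.ρ 2
    rw [e, norm_neg, norm_div, ht, div_lt_iff₀ h1']
    have h3 : r < D.ρ 2 * (1 - r) := h
    have := D.ρ_pos 2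
    nlinarith
  · exact absurd rfl hc

theorem Sc_out {r : ℝ} (hr : 0 < r) (h : Rad D.ρ 3 r) {t : ℂ} (ht : ‖t‖ = r) :
    D.ρ 3 < ‖Sc 3 t - 1 / 2‖ := by
  have h0 : t ≠ 0 := by
    rintro rfl
    rw [norm_zero] at ht
    linarith
  have e : Sc 3 t - 1 / 2 = -(1 / (2 * t)) := by
    change -(1 - t) / (2 * t) - 1 / 2 = -(1 / (2 * t))
    field_simp
    ring
  rw [e, norm_neg, norm_div, norm_mul, ht, norm_one]
  have h4 : ‖(2 : ℂ)‖ = 2 := by norm_num
  rw [h4, lt_div_iff₀ (by positivity)]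
  have h3 : 2 * r * D.ρ 3 < 1 := h
  linarith

/-- a point strictly inside a cusp disc belongs to no other cell -/
theorem only_cu {c : Fin 4} {z : ℂ} (hz : if c = 3 then D.ρ 3 < ‖z - 1 / 2‖ else ‖z - cen c‖ < D.ρ c)
    {i : CI N} (hi : z ∈ D.sharp.toWD.T.reg D.sharp.toWD.g 0 i) : i = .cu c := by
  have r0 := D.ρ_pos 0
  have r1 := D.ρ_pos 1
  have r2 := D.ρ_pos 2
  have s01 := D.s01
  have s12 := D.s12
  have s3 := D.s3
  have n1 : ‖(1 : ℂ) - 1 / 2‖ = 1 / 2 := by norm_num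
  have n2 : ‖(1 / 2 : ℂ)‖ = 1 / 2 := by norm_num
  have t1 : 1 / 2 ≤ ‖z - 1‖ + ‖z - 1 / 2‖ := by
    have h := norm_sub_le (z - 1 / 2) (z - 1)
    have e : (z - 1 / 2) - (z - 1) = (1 : ℂ) - 1 / 2 := by ring
    rw [e, n1] at h
    linarith
  have t2 : 1 / 2 ≤ ‖z‖ + ‖z - 1 / 2‖ := by
    have h := norm_sub_le z (z - 1 / 2)
    have e : z - (z - 1 / 2) = (1 / 2 : ℂ) := by ring
    rw [e, n2] at h
    linarith
  have t3 : ‖z - 1 / 2‖ ≤ ‖z - 1‖ + 1 / 2 := by
    have h := norm_add_le (z - 1) ((1 : ℂ) - 1 / 2)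
    have e : (z - 1) + (1 - 1 / 2) = z - 1 / 2 := by ring
    rw [e, n1] at h
    linarith
  have t4 : ‖z - 1 / 2‖ ≤ ‖z‖ + 1 / 2 := by
    have h := norm_sub_le z (1 / 2 : ℂ)
    rw [n2] at h
    exact h
  have t5 : 1 ≤ ‖z - 1‖ + ‖z‖ := by
    have h := norm_sub_le z (z - 1)
    have e : z - (z - 1) = (1 : ℂ) := by ring
    rw [e, norm_one] at h
    linarith
  -- a point of a disc is not in `Dom`
  have hnd : z ∉ Dom D.ρ := by
    rintro ⟨a0, a1, a2, a3⟩
    by_cases hc : c = 3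
    · rw [if_pos hc] at hz
      linarith
    · rw [if_neg hc] at hz
      fin_cases c
      · have h : ‖z - 1‖ < D.ρ 0 := hz
        linarith
      · have h : ‖z - 1 / 2‖ < D.ρ 1 := hz
        linarith
      · have h : ‖z - 0‖ < D.ρ 2 := hz
        rw [sub_zero] at h
        linarith
      · exact absurd rfl hc
  rcases i with k | k | c'
  · exact absurd (mem_up D.ρ_pos hi).1 hnd
  · exact absurd (mem_lo D.ρ_pos hi).1 hnd
  · congr 1
    -- the closed disc `c'`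
    by_cases hc' : c' = 3
    · subst hc'
      have h1 := mem_cu3_reg hi
      have h2 : D.ρ 3 ≤ ‖z - 1 / 2‖ := (circ_nonneg (c := 1 / 2) (D.ρ_pos 3)).1 (by
        have h3 : -(0 : ℝ) ≤ (Wall.circ (1 / 2) (D.ρ 3)).fn z := h1
        linarith)
      by_contra hne
      have hc : c ≠ 3 := fun h => hne h.symm
      rw [if_neg hc] at hz
      fin_cases c
      · have h : ‖z - 1‖ < D.ρ 0 := hz
        linarith
      · have h : ‖z - 1 / 2‖ < D.ρ 1 := hz
        linarith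
      · have h : ‖z - 0‖ < D.ρ 2 := hz
        rw [sub_zero] at h
        linarith
      · exact hc rfl
    · obtain ⟨h1, h2⟩ := mem_cu_reg hc' hi
      have h1' := (circ_nonpos (D.ρ_pos c')).1 h1
      have h2' : ‖z - 1 / 2‖ ≤ D.ρ 3 := (circ_nonpos (c := 1 / 2) (D.ρ_pos 3)).1 h2
      by_cases hc : c = 3
      · rw [if_pos hc] at hz
        linarith
      · rw [if_neg hc] at hz
        fin_cases c <;> fin_cases c' <;> first | rfl | exact absurd rfl hc | exact absurd rfl hc' | skip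
        · have a : ‖z - 1‖ < D.ρ 0 := hz
          have b : ‖z - 1 / 2‖ ≤ D.ρ 1 := h1'
          linarith
        · have a : ‖z - 1‖ < D.ρ 0 := hz
          have b : ‖z - 0‖ ≤ D.ρ 2 := h1'
          rw [sub_zero] at b
          linarith
        · have a : ‖z - 1 / 2‖ < D.ρ 1 := hz
          have b : ‖z - 1‖ ≤ D.ρ 0 := h1'
          linarith
        · have a : ‖z - 1 / 2‖ < D.ρ 1 := hz
          have b : ‖z - 0‖ ≤ D.ρ 2 := h1'
          rw [sub_zero] at b
          linarith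
        · have a : ‖z - 0‖ < D.ρ 2 := hz
          have b : ‖z - 1‖ ≤ D.ρ 0 := h1'
          rw [sub_zero] at a
          linarith
        · have a : ‖z - 0‖ < D.ρ 2 := hz
          have b : ‖z - 1 / 2‖ ≤ D.ρ 1 := h1'
          rw [sub_zero] at a
          linarith

end geo

/-- the totals of the 17 groups in the rows of the disc frames: `Lv g b` = the total of the group
`g` may have a component on the level `b` -/
structure TotPk (d : DiscPk) {P : Par} {r : Gp → ℝ} (T : Tot P r) where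
  Lv : Gp → Fin 8 → Prop
  ex : ∀ g, ∃ B : ℝ, ∀ t : ℂ, ‖t‖ = r g → ∃ y : Fin 8 → ℂ,
    colY (∑ g', ((T.al g g' : ℝ) : ℂ) • tupC g' t) = y ᵥ* d.S g.cusp (Sc g.cusp t) ∧
      ∀ b, ‖y b‖ ≤ B ∧ (y b = 0 ∨ Lv g b)

/-- the determinant bound from condition (C) -/
theorem detB_of_pot {κ ι : Type} [DecidableEq ι] [Fintype ι] [Fintype κ] (G : WallData κ ι 8)
    (D0 : ℕ) (μ : Fin 8 → Pot) (γ : Fin 8 → ℝ) (hC : G.Cond (WtP (fun _ => D0) μ γ)) :
    DetB G (WtP (fun _ => D0) μ γ) D0 (E0P (fun _ => D0) μ γ) := by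
  intro R1 ε hε
  filter_upwards [nodes_boundP G (fun _ => D0) (fun _ _ _ => le_rfl) μ γ hC hε] with s hs a v _
  exact hs (Fin (D0 * s) × Fin 8) (Fintype.card_congr (sigEquiv (D0 * s))) a v

/-- **route N, top theorem** -/
theorem stAR_N {N n : ℕ} (P : Par) (c0 : ℕ) (hcard : ∑ g : Gp, P.ht g = 8 * P.D0)
    (hD0 : 0 < P.D0) (r : Gp → ℝ) (hr : ∀ g, 0 < r g) (hr1 : ∀ g, r g < 1) (T : Tot P r)
    {X : Fin 8 → ℂ → Fin 8 → ℂ} (hX : YD X) (t : GTab N n) (d : DiscPk) (Q : FPat t X d)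
    (hrad : ∀ g, Rad t.ρ g.cusp (r g)) (K : TotPk d T)
    (μ : Fin 8 → Pot) (γ : Fin 8 → ℝ)
    (hsym : ∀ b z, WtP (fun _ => P.D0) μ γ b (conj z) = WtP (fun _ => P.D0) μ γ b z)
    (n1 : ∀ z ∈ Dom t.ρ, z.im = 0 → ∀ b c, Q.pR (can (fun j => (t.w j).fn) t.TU z) (FPat.qz z) b c →
      WtP (fun _ => P.D0) μ γ c z ≤ WtP (fun _ => P.D0) μ γ b z)
    (n2 : Edges (fun j => (t.w j).fn)
      (fun k k' z => ∀ b c, (Q.pI k k' b c ∨ Q.pI k' k b c) →
        WtP (fun _ => P.D0) μ γ c z ≤ WtP (fun _ => P.D0) μ γ b z)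
      {z | 0 ≤ z.im ∧ z ∈ Dom t.ρ} t.TU)
    (n3 : ∀ c z, ‖z - cen c‖ = t.ρ c → 0 ≤ z.im →
      can (fun j => (t.w j).fn) t.TU z = Q.kc c ∧ ∀ b b', Q.pC c b b' →
        WtP (fun _ => P.D0) μ γ b' z ≤ WtP (fun _ => P.D0) μ γ b z)
    (ω : Gp → ℝ)
    (n4 : ∀ g, ∀ s : ℂ, ‖s‖ = r g → ∀ b, K.Lv g b →
      WtP (fun _ => P.D0) μ γ b (Sc g.cusp s) ≤ ω g) :
    StAR P c0 (E0P (fun _ => P.D0) μ γ - Vale.Agent.P030.H866.Qm P r ω) := by
  set W := WtP (fun _ => P.D0) μ γ with hW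
  have hC : (t.top hX d).sharp.toWD.Cond W := by
    refine (t.top hX d).cond (Q.pat hX) hsym ?_ n2 ?_
    · intro z hz hi b c hp
      exact n1 z hz hi b c hp
    · intro c z hz hi b b' hp
      obtain ⟨h1, h2⟩ := n3 c z hz hi
      exact h2 b b' (hp h1)
  have hWc : ∀ b, Continuous (W b) := fun b =>
    (continuous_const.mul (μ b).cont).add continuous_const
  refine stAR_of_det P c0 hcard hD0 r hr hr1 T Rc Rc_det (t.top hX d).sharp.toWD hWc
    (detB_of_pot _ P.D0 μ γ hC) ω ?_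
  intro g
  obtain ⟨B, hB⟩ := K.ex g
  refine ⟨B, fun s hs i hi => ?_⟩
  have hic : i = .cu g.cusp := by
    refine only_cu (t.top hX d) (c := g.cusp) ?_ hi
    by_cases hc : g.cusp = 3
    · rw [if_pos hc, hc]
      have h := hrad g
      rw [hc] at h
      exact Sc_out (t.top hX d) (hr g) h hs
    · rw [if_neg hc]
      exact Sc_in (t.top hX d) hc (hr g) (hr1 g) (hrad g) hs
  subst hic
  obtain ⟨y, hy, hb⟩ := hB s hs
  refine ⟨y, ?_, fun b => ⟨(hb b).1, (hb b).2.imp id fun h => n4 g s hs b h⟩⟩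
  rw [Rc_mulVec]
  exact hy

end Vale.Agent.P030.AR
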