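import Vale.Agent.P030.AR.NTree

/-!
# P030, route N: the literal tree (four cusp circles, real axis, upper tree and its mirror image)
and the reduction of condition (C) to three lists of inequalities (helper991)

`TopN N n m` : upper tree `TU`, walls `w`, radii `ρ` of the cusp circles (`|S - 1|`, `|S - 1/2|`,
`|S|`, and the outer circle `|S - 1/2| = ρ 3`), frames `Su k` of the upper cells, `Sd c` of the
discs.  The lower cells are the mirror images.
-/

open Matrix Set Filter Topology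
open Vale.Agent.P030.H580 Vale.Agent.P030.H152 Vale.Agent.P030.H265
open scoped ComplexConjugate

namespace Vale.Agent.P030.AR

/-- the cells: upper cells, their mirror images, the four cusp discs (`cu 3` = exterior) -/
inductive CI (N : ℕ)
  | up (k : Fin N)
  | lo (k : Fin N)
  | cu (c : Fin 4)
  deriving DecidableEq, Fintype

/-- the walls: cusp circles, real axis, upper walls, mirrored walls -/
inductive KI (n : ℕ)
  | cw (c : Fin 4)
  | ax
  | wu (j : Fin n)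
  | wl (j : Fin n)
  deriving DecidableEq, Fintype

section maps
variable {κ κ' ι ι' : Type}

/-- renaming of walls and cells -/
def tmap (f : κ → κ') (h : ι → ι') : WTree κ ι → WTree κ' ι'
  | .leaf i => .leaf (h i)
  | .node j l r => .node (f j) (tmap f h l) (tmap f h r)

theorem can_tmap (f : κ → κ') (h : ι → ι') (g : κ' → ℂ → ℝ) (T : WTree κ ι) (z : ℂ) :
    can g (tmap f h T) z = h (can (fun j => g (f j)) T z) := by
  induction T with
  | leaf i => rfl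
  | node j l r hl hr =>
    simp only [tmap, can]
    split_ifs
    · exact hr
    · exact hl

theorem reg_tmap (f : κ → κ') (h : ι → ι') (g : κ' → ℂ → ℝ) (ε : ℝ) (T : WTree κ ι)
    {i' : ι'} {z : ℂ} (hz : z ∈ (tmap f h T).reg g ε i') :
    ∃ i, i' = h i ∧ z ∈ T.reg (fun j => g (f j)) ε i := by
  induction T with
  | leaf i => exact ⟨i, hz, rfl⟩
  | node j l r hl hr =>
    rcases hz with ⟨a, b⟩ | ⟨a, b⟩
    · obtain ⟨i, h1, h2⟩ := hr b
      exact ⟨i, h1, Or.inl ⟨a, h2⟩⟩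
    · obtain ⟨i, h1, h2⟩ := hl b
      exact ⟨i, h1, Or.inr ⟨a, h2⟩⟩

theorem edges_tmap (f : κ → κ') (h : ι → ι') (g : κ' → ℂ → ℝ) (E : ι' → ι' → ℂ → Prop)
    (T : WTree κ ι) : ∀ D : Set ℂ,
      Edges (fun j => g (f j)) (fun i i' z => E (h i) (h i') z) D T →
        Edges g E D (tmap f h T) := by
  induction T with
  | leaf i => intro D _; trivial
  | node j l r hl hr =>
    intro D hE
    refine ⟨fun z hz h0 => ?_, hl _ hE.2.1, hr _ hE.2.2⟩
    rw [can_tmap, can_tmap]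
    exact hE.1 z hz h0

theorem can_conj (g : κ → ℂ → ℝ) (T : WTree κ ι) (z : ℂ) :
    can (fun j z => g j (conj z)) T z = can g T (conj z) := by
  induction T with
  | leaf i => rfl
  | node j l r hl hr =>
    simp only [can]
    split_ifs
    · exact hr
    · exact hl

theorem reg_conj (g : κ → ℂ → ℝ) (ε : ℝ) (T : WTree κ ι) (i : ι) {z : ℂ}
    (hz : z ∈ T.reg (fun j z => g j (conj z)) ε i) : conj z ∈ T.reg g ε i := by
  induction T with
  | leaf i0 => exact hz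
  | node j l r hl hr =>
    rcases hz with ⟨a, b⟩ | ⟨a, b⟩
    · exact Or.inl ⟨a, hr b⟩
    · exact Or.inr ⟨a, hl b⟩

theorem edges_conj (g : κ → ℂ → ℝ) (E : ι → ι → ℂ → Prop) (T : WTree κ ι) : ∀ D : Set ℂ,
    Edges g (fun i i' z => E i i' (conj z)) {z | conj z ∈ D} T →
      Edges (fun j z => g j (conj z)) E D T := by
  induction T with
  | leaf i => intro D _; trivial
  | node j l r hl hr =>
    intro D hE
    refine ⟨fun z hz h0 => ?_, hl _ ?_, hr _ ?_⟩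
    · rw [can_conj, can_conj]
      have := hE.1 (conj z) (by simpa using hz) h0
      simpa using this
    · refine Edges.mono _ _ _ ?_ hE.2.1
      intro z hz
      simp only [mem_inter_iff, mem_ofPred_eq, Complex.conj_conj] at hz ⊢
      exact hz
    · refine Edges.mono _ _ _ ?_ hE.2.2
      intro z hz
      simp only [mem_inter_iff, mem_ofPred_eq, Complex.conj_conj] at hz ⊢
      exact hz

end maps

/-- mirror image of a wall -/
def mir : Wall → Wall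
  | .line a b t => .line a (-b) t
  | .circ c r => .circ (conj c) r

theorem mir_fn (W : Wall) (z : ℂ) : (mir W).fn z = W.fn (conj z) := by
  cases W with
  | line a b t => simp [mir, Wall.fn]
  | circ c r =>
    simp only [mir, Wall.fn]
    have h : z - conj c = conj (conj z - c) := by simp
    rw [h, Complex.normSq_conj]

section big
variable {N n : ℕ}

/-- the centres of the cusp circles -/
noncomputable def cen : Fin 4 → ℂ := ![1, 1 / 2, 0, 1 / 2]

/-- the walls -/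
noncomputable def bigW (ρ : Fin 4 → ℝ) (w : Fin n → Wall) : KI n → Wall
  | .cw c => .circ (cen c) (ρ c)
  | .ax => .line 0 1 0
  | .wu j => w j
  | .wl j => mir (w j)

/-- the tree -/
def bigT (TU : WTree (Fin n) (Fin N)) : WTree (KI n) (CI N) :=
  .node (.cw 3)
    (.node (.cw 0) (.leaf (.cu 0)) (.node (.cw 1) (.leaf (.cu 1)) (.node (.cw 2) (.leaf (.cu 2))
      (.node .ax (tmap .wl .lo TU) (tmap .wu .up TU)))))
    (.leaf (.cu 3))

/-- the closed region outside of the cusp discs -/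
def Dom (ρ : Fin 4 → ℝ) : Set ℂ :=
  {z | ρ 0 ≤ ‖z - 1‖ ∧ ρ 1 ≤ ‖z - 1 / 2‖ ∧ ρ 2 ≤ ‖z‖ ∧ ‖z - 1 / 2‖ ≤ ρ 3}

theorem dom_conj_iff {ρ : Fin 4 → ℝ} (z : ℂ) : conj z ∈ Dom ρ ↔ z ∈ Dom ρ := by
  have h1 : ‖conj z - 1‖ = ‖z - 1‖ := by
    rw [← Complex.norm_conj (z - 1)]; simp
  have h2 : ‖conj z - 1 / 2‖ = ‖z - 1 / 2‖ := by
    rw [← Complex.norm_conj (z - 1 / 2), map_sub, map_div₀, map_one, map_ofNat]
  have h3 : ‖conj z‖ = ‖z‖ := Complex.norm_conj z
  simp only [Dom, mem_ofPred_eq, h1, h2, h3]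

theorem circle_mem_Dom {ρ : Fin 4 → ℝ} (hρ : ∀ c, 0 < ρ c) (s01 : ρ 0 + ρ 1 < 1 / 2)
    (s12 : ρ 1 + ρ 2 < 1 / 2) (s3 : 1 < ρ 3) (c : Fin 4) {z : ℂ} (hz : ‖z - cen c‖ = ρ c) :
    z ∈ Dom ρ := by
  have r0 := hρ 0
  have r1 := hρ 1
  have r2 := hρ 2
  have n1 : ‖(1 : ℂ) - 1 / 2‖ = 1 / 2 := by norm_num
  have n2 : ‖(1 / 2 : ℂ)‖ = 1 / 2 := by norm_num
  have t1 : 1 / 2 ≤ ‖z - 1‖ + ‖z - 1 / 2‖ := by
    have h := norm_sub_le (z - 1 / 2) (z - 1)
    have e : (z - 1 / 2) - (z - 1) = (1 : ℂ) - 1 / 2 := by ring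
    rw [e, n1] at h
    linarith
  have t2 : 1 / 2 ≤ ‖z‖ + ‖z - 1 / 2‖ := by
    have h := norm_sub_le z (z - 1 / 2)
    have e : z - (z - 1 / 2) = (1 / 2 : ℂ) := by ring
    rw [e, n2] at h
    linarith
  have t3 : ‖z - 1 / 2‖ ≤ ‖z - 1‖ + 1 / 2 := by
    have h := norm_add_le (z - 1) ((1 : ℂ) - 1 / 2)
    have e : (z - 1) + (1 - 1 / 2) = z - 1 / 2 := by ring
    rw [e, n1] at h
    linarith
  have t4 : ‖z - 1 / 2‖ ≤ ‖z‖ + 1 / 2 := by
    have h := norm_sub_le z (1 / 2 : ℂ)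
    rw [n2] at h
    exact h
  have t5 : 1 ≤ ‖z - 1‖ + ‖z‖ := by
    have h := norm_sub_le z (z - 1)
    have e : z - (z - 1) = (1 : ℂ) := by ring
    rw [e, norm_one] at h
    linarith
  fin_cases c
  · have h : ‖z - 1‖ = ρ 0 := hz
    refine ⟨?_, ?_, ?_, ?_⟩ <;> linarith
  · have h : ‖z - 1 / 2‖ = ρ 1 := hz
    refine ⟨?_, ?_, ?_, ?_⟩ <;> linarith
  · have h : ‖z - 0‖ = ρ 2 := hz
    rw [sub_zero] at h
    refine ⟨?_, ?_, ?_, ?_⟩ <;> linarith
  · have h : ‖z - 1 / 2‖ = ρ 3 := hz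
    refine ⟨?_, ?_, ?_, ?_⟩ <;> linarith

theorem circ_nonneg {c : ℂ} {r : ℝ} (hr : 0 < r) {z : ℂ} :
    0 ≤ (Wall.circ c r).fn z ↔ r ≤ ‖z - c‖ := by
  simp only [Wall.fn, Complex.normSq_eq_norm_sq]
  constructor
  · intro h
    have h1 : r ^ 2 ≤ ‖z - c‖ ^ 2 := by linarith
    exact le_of_sq_le_sq h1 (norm_nonneg _)
  · intro h
    have : r ^ 2 ≤ ‖z - c‖ ^ 2 := by gcongr
    linarith

theorem circ_nonpos {c : ℂ} {r : ℝ} (hr : 0 < r) {z : ℂ} :
    (Wall.circ c r).fn z ≤ 0 ↔ ‖z - c‖ ≤ r := by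
  simp only [Wall.fn, Complex.normSq_eq_norm_sq]
  constructor
  · intro h
    have h1 : ‖z - c‖ ^ 2 ≤ r ^ 2 := by linarith
    exact le_of_sq_le_sq h1 hr.le
  · intro h
    have : ‖z - c‖ ^ 2 ≤ r ^ 2 := by gcongr
    linarith

theorem circ_zero {c : ℂ} {r : ℝ} (hr : 0 < r) {z : ℂ} :
    (Wall.circ c r).fn z = 0 ↔ ‖z - c‖ = r := by
  rw [le_antisymm_iff, circ_nonneg hr, circ_nonpos hr, ← le_antisymm_iff]


variable {ρ : Fin 4 → ℝ} {w : Fin n → Wall} {TU : WTree (Fin n) (Fin N)}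

theorem nn {z : ℂ} {g : ℂ → ℝ} (h : z ∈ {z | -(0 : ℝ) ≤ g z}) : 0 ≤ g z := by
  have h1 : -(0 : ℝ) ≤ g z := h
  linarith

theorem mem_up (hρ : ∀ c, 0 < ρ c) {k : Fin N} {z : ℂ}
    (hz : z ∈ (bigT TU).reg (fun j => (bigW ρ w j).fn) 0 (.up k)) :
    z ∈ Dom ρ ∧ 0 ≤ z.im ∧ z ∈ TU.reg (fun j => (w j).fn) 0 k := by
  rcases hz with ⟨_, b⟩ | ⟨a3, b⟩
  · have h : CI.up k = CI.cu 3 := b; cases h
  rcases b with ⟨a0, b⟩ | ⟨_, b⟩
  swap
  · have h : CI.up k = CI.cu 0 := b; cases h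
  rcases b with ⟨a1, b⟩ | ⟨_, b⟩
  swap
  · have h : CI.up k = CI.cu 1 := b; cases h
  rcases b with ⟨a2, b⟩ | ⟨_, b⟩
  swap
  · have h : CI.up k = CI.cu 2 := b; cases h
  have d3 := (circ_nonpos (hρ 3)).1 a3
  have d0 := (circ_nonneg (hρ 0)).1 (nn a0)
  have d1 := (circ_nonneg (hρ 1)).1 (nn a1)
  have d2 := (circ_nonneg (hρ 2)).1 (nn a2)
  rcases b with ⟨a, b⟩ | ⟨_, b⟩
  · obtain ⟨i, h1, h2⟩ := reg_tmap _ _ _ _ _ b
    have h3 : k = i := by simpa using h1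
    subst h3
    refine ⟨⟨by simpa [cen] using d0, by simpa [cen] using d1, by simpa [cen] using d2,
      by simpa [cen] using d3⟩, ?_, h2⟩
    have : (0 : ℝ) ≤ (Wall.line 0 1 0).fn z := nn a
    simpa [Wall.fn] using this
  · obtain ⟨i, h1, _⟩ := reg_tmap _ _ _ _ _ b
    exact absurd h1 (by simp)

theorem mem_lo (hρ : ∀ c, 0 < ρ c) {k : Fin N} {z : ℂ}
    (hz : z ∈ (bigT TU).reg (fun j => (bigW ρ w j).fn) 0 (.lo k)) :
    z ∈ Dom ρ ∧ z.im ≤ 0 ∧ conj z ∈ TU.reg (fun j => (w j).fn) 0 k := by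
  rcases hz with ⟨_, b⟩ | ⟨a3, b⟩
  · have h : CI.lo k = CI.cu 3 := b; cases h
  rcases b with ⟨a0, b⟩ | ⟨_, b⟩
  swap
  · have h : CI.lo k = CI.cu 0 := b; cases h
  rcases b with ⟨a1, b⟩ | ⟨_, b⟩
  swap
  · have h : CI.lo k = CI.cu 1 := b; cases h
  rcases b with ⟨a2, b⟩ | ⟨_, b⟩
  swap
  · have h : CI.lo k = CI.cu 2 := b; cases h
  have d3 := (circ_nonpos (hρ 3)).1 a3
  have d0 := (circ_nonneg (hρ 0)).1 (nn a0)
  have d1 := (circ_nonneg (hρ 1)).1 (nn a1)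
  have d2 := (circ_nonneg (hρ 2)).1 (nn a2)
  rcases b with ⟨_, b⟩ | ⟨a, b⟩
  · obtain ⟨i, h1, _⟩ := reg_tmap _ _ _ _ _ b
    exact absurd h1 (by simp)
  · obtain ⟨i, h1, h2⟩ := reg_tmap _ _ _ _ _ b
    have h3 : k = i := by simpa using h1
    subst h3
    refine ⟨⟨by simpa [cen] using d0, by simpa [cen] using d1, by simpa [cen] using d2,
      by simpa [cen] using d3⟩, ?_, ?_⟩
    · have : (Wall.line 0 1 0).fn z ≤ (0 : ℝ) := a
      simpa [Wall.fn] using this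
    · refine reg_conj (fun j => (w j).fn) 0 TU k ?_
      have e : (fun j => (bigW ρ w (KI.wl j)).fn) = fun (j : Fin n) z => (w j).fn (conj z) := by
        funext j z
        exact mir_fn (w j) z
      rw [← e]
      exact h2

theorem not_cu_tmap {κ : Type} (f : Fin n → κ) (h : Fin N → CI N) (hh : ∀ k c, h k ≠ CI.cu c)
    (g : κ → ℂ → ℝ) (ε : ℝ) (c : Fin 4) (z : ℂ) :
    z ∉ (tmap f h TU).reg g ε (CI.cu c) := by
  intro hz
  obtain ⟨i, h1, _⟩ := reg_tmap _ _ _ _ _ hz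
  exact hh i c h1.symm

theorem mem_cu_reg {ε : ℝ} {c : Fin 4} (hc : c ≠ 3) {z : ℂ}
    (hz : z ∈ (bigT TU).reg (fun j => (bigW ρ w j).fn) ε (.cu c)) :
    (Wall.circ (cen c) (ρ c)).fn z ≤ ε ∧ (Wall.circ (cen 3) (ρ 3)).fn z ≤ ε := by
  rcases hz with ⟨_, b⟩ | ⟨a3, b⟩
  · have h : (CI.cu c : CI N) = CI.cu 3 := b; exact absurd (CI.cu.inj h) hc
  refine ⟨?_, a3⟩
  rcases b with ⟨a0, b⟩ | ⟨a, b⟩
  swap
  · have h0 : (CI.cu c : CI N) = CI.cu 0 := b
    have h : c = 0 := CI.cu.inj h0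
    subst h
    exact a
  rcases b with ⟨a1, b⟩ | ⟨a, b⟩
  swap
  · have h0 : (CI.cu c : CI N) = CI.cu 1 := b
    have h : c = 1 := CI.cu.inj h0
    subst h
    exact a
  rcases b with ⟨a2, b⟩ | ⟨a, b⟩
  swap
  · have h0 : (CI.cu c : CI N) = CI.cu 2 := b
    have h : c = 2 := CI.cu.inj h0
    subst h
    exact a
  rcases b with ⟨_, b⟩ | ⟨_, b⟩
  · exact absurd b (not_cu_tmap _ _ (by simp) _ _ _ _)
  · exact absurd b (not_cu_tmap _ _ (by simp) _ _ _ _)

theorem mem_cu3_reg {ε : ℝ} {z : ℂ}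
    (hz : z ∈ (bigT TU).reg (fun j => (bigW ρ w j).fn) ε (.cu 3)) :
    -ε ≤ (Wall.circ (cen 3) (ρ 3)).fn z := by
  rcases hz with ⟨a, _⟩ | ⟨_, b⟩
  · exact a
  rcases b with ⟨_, b⟩ | ⟨_, b⟩
  swap
  · have h : CI.cu (3 : Fin 4) = CI.cu 0 := b; exact absurd (CI.cu.inj h) (by decide)
  rcases b with ⟨_, b⟩ | ⟨_, b⟩
  swap
  · have h : CI.cu (3 : Fin 4) = CI.cu 1 := b; exact absurd (CI.cu.inj h) (by decide)
  rcases b with ⟨_, b⟩ | ⟨_, b⟩
  swap
  · have h : CI.cu (3 : Fin 4) = CI.cu 2 := b; exact absurd (CI.cu.inj h) (by decide)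
  rcases b with ⟨_, b⟩ | ⟨_, b⟩
  · exact absurd b (not_cu_tmap _ _ (by simp) _ _ _ _)
  · exact absurd b (not_cu_tmap _ _ (by simp) _ _ _ _)

/-- every bounded cell is inside of the outer circle -/
theorem bounded_reg {ε : ℝ} {i : CI N} (hi : i ≠ .cu 3) {z : ℂ}
    (hz : z ∈ (bigT TU).reg (fun j => (bigW ρ w j).fn) ε i) :
    (Wall.circ (cen 3) (ρ 3)).fn z ≤ ε := by
  rcases hz with ⟨_, b⟩ | ⟨a3, _⟩
  · exact absurd b hi
  · exact a3


/-! ### edges of the big tree -/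

theorem can_ax {z : ℂ} (g : KI n → ℂ → ℝ) :
    can g (.node .ax (tmap .wl .lo TU) (tmap .wu .up TU) : WTree (KI n) (CI N)) z =
      if 0 ≤ g .ax z then CI.up (can (fun j => g (.wu j)) TU z)
      else CI.lo (can (fun j => g (.wl j)) TU z) := by
  simp only [can, can_tmap]

/-- the cell next to a point of a cusp circle -/
noncomputable def nb (w : Fin n → Wall) (TU : WTree (Fin n) (Fin N)) (z : ℂ) : CI N :=
  if 0 ≤ z.im then .up (can (fun j => (w j).fn) TU z)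
  else .lo (can (fun j => (w j).fn) TU (conj z))

theorem can_ax' (z : ℂ) :
    can (fun j => (bigW ρ w j).fn)
      (.node .ax (tmap .wl .lo TU) (tmap .wu .up TU) : WTree (KI n) (CI N)) z = nb w TU z := by
  rw [can_ax]
  have e : (fun j => (bigW ρ w (KI.wl j)).fn) = fun (j : Fin n) z => (w j).fn (conj z) := by
    funext j z
    exact mir_fn (w j) z
  have e2 : (bigW ρ w (KI.ax : KI n)).fn z = z.im := by
    simp [bigW, Wall.fn]
  simp only [e2, nb]
  rw [e, can_conj]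
  rfl

theorem can_out {g : KI n → ℂ → ℝ} {j : KI n} {l r : WTree (KI n) (CI N)} {z : ℂ}
    (h : 0 ≤ g j z) : can g (.node j l r) z = can g r z := if_pos h

theorem edges_big (hρ : ∀ c, 0 < ρ c) (s01 : ρ 0 + ρ 1 < 1 / 2) (s12 : ρ 1 + ρ 2 < 1 / 2)
    (s3 : 1 < ρ 3) {E : CI N → CI N → ℂ → Prop}
    (hsym : ∀ i i' z, E i i' z → E i' i z)
    (hc : ∀ c z, ‖z - cen c‖ = ρ c → E (nb w TU z) (.cu c) z)
    (hax : ∀ z ∈ Dom ρ, z.im = 0 → E (.up (can (fun j => (w j).fn) TU z))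
      (.lo (can (fun j => (w j).fn) TU z)) z)
    (hup : Edges (fun j => (w j).fn) (fun k k' z => E (.up k) (.up k') z)
      {z | 0 ≤ z.im ∧ z ∈ Dom ρ} TU)
    (hlo : Edges (fun j => (w j).fn) (fun k k' z => E (.lo k) (.lo k') (conj z))
      {z | 0 ≤ z.im ∧ z ∈ Dom ρ} TU) :
    Edges (fun j => (bigW ρ w j).fn) E univ (bigT TU) := by
  have r0 := hρ 0
  have r1 := hρ 1
  have r2 := hρ 2
  have n1 : ‖(1 : ℂ) - 1 / 2‖ = 1 / 2 := by norm_num
  have n2 : ‖(1 / 2 : ℂ)‖ = 1 / 2 := by norm_num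
  -- distances
  have t1 : ∀ z : ℂ, 1 / 2 ≤ ‖z - 1‖ + ‖z - 1 / 2‖ := by
    intro z
    have h := norm_sub_le (z - 1 / 2) (z - 1)
    have e : (z - 1 / 2) - (z - 1) = (1 : ℂ) - 1 / 2 := by ring
    rw [e, n1] at h
    linarith
  have t2 : ∀ z : ℂ, 1 / 2 ≤ ‖z‖ + ‖z - 1 / 2‖ := by
    intro z
    have h := norm_sub_le z (z - 1 / 2)
    have e : z - (z - 1 / 2) = (1 / 2 : ℂ) := by ring
    rw [e, n2] at h
    linarith
  have t3 : ∀ z : ℂ, ‖z - 1 / 2‖ ≤ ‖z - 1‖ + 1 / 2 := by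
    intro z
    have h := norm_add_le (z - 1) ((1 : ℂ) - 1 / 2)
    have e : (z - 1) + (1 - 1 / 2) = z - 1 / 2 := by ring
    rw [e, n1] at h
    linarith
  have t4 : ∀ z : ℂ, ‖z - 1 / 2‖ ≤ ‖z‖ + 1 / 2 := by
    intro z
    have h := norm_sub_le z (1 / 2 : ℂ)
    rw [n2] at h
    exact h
  have t5 : ∀ z : ℂ, 1 ≤ ‖z - 1‖ + ‖z‖ := by
    intro z
    have h := norm_sub_le z (z - 1)
    have e : z - (z - 1) = (1 : ℂ) := by ring
    rw [e, norm_one] at h
    linarith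
  have e : (fun j => (bigW ρ w (KI.wl j)).fn) = fun (j : Fin n) z => (w j).fn (conj z) := by
    funext j z
    exact mir_fn (w j) z
  have dom : ∀ {z : ℂ}, z ∈ (((univ ∩ {z | (bigW ρ w (KI.cw 3 : KI n)).fn z ≤ 0}) ∩
      {z | 0 ≤ (bigW ρ w (KI.cw 0 : KI n)).fn z}) ∩ {z | 0 ≤ (bigW ρ w (KI.cw 1 : KI n)).fn z}) ∩
      {z | 0 ≤ (bigW ρ w (KI.cw 2 : KI n)).fn z} → z ∈ Dom ρ := by
    rintro z ⟨⟨⟨⟨_, a3⟩, a0⟩, a1⟩, a2⟩
    have b2 := (circ_nonneg (c := 0) (hρ 2)).1 a2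
    rw [sub_zero] at b2
    exact ⟨(circ_nonneg (c := 1) (hρ 0)).1 a0, (circ_nonneg (c := 1 / 2) (hρ 1)).1 a1, b2,
      (circ_nonpos (c := 1 / 2) (hρ 3)).1 a3⟩
  have dom_conj : ∀ {z : ℂ}, conj z ∈ Dom ρ → z ∈ Dom ρ := fun {z} h => (dom_conj_iff z).1 h
  refine ⟨?_, ⟨?_, trivial, ?_, trivial, ?_, trivial, ?_, ?_, ?_⟩, trivial⟩
  · -- outer circle
    intro z _ h0
    have h3 := (circ_zero (c := 1 / 2) (hρ 3)).1 h0
    have hc3 := hc 3 z h3
    have hr : can (fun j => (bigW ρ w j).fn) (.leaf (.cu 3) : WTree (KI n) (CI N)) z = .cu 3 := rfl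
    rw [hr]
    rw [can_out (g := fun j => (bigW ρ w j).fn) (j := KI.cw 0) (by exact (circ_nonneg (c := 1) (hρ 0)).2 (by have := t3 z; linarith)),
      can_out (g := fun j => (bigW ρ w j).fn) (j := KI.cw 1) (by exact (circ_nonneg (c := 1 / 2) (hρ 1)).2 (by linarith)),
      can_out (g := fun j => (bigW ρ w j).fn) (j := KI.cw 2) (by exact (circ_nonneg (c := 0) (hρ 2)).2 (by have := t4 z; rw [sub_zero]; linarith)), can_ax']
    exact hc3
  · intro z _ h0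
    have h3 := (circ_zero (c := 1) (hρ 0)).1 h0
    have hl : can (fun j => (bigW ρ w j).fn) (.leaf (.cu 0) : WTree (KI n) (CI N)) z = .cu 0 := rfl
    rw [hl, can_out (g := fun j => (bigW ρ w j).fn) (j := KI.cw 1) (by exact (circ_nonneg (c := 1 / 2) (hρ 1)).2 (by have := t1 z; linarith)),
      can_out (g := fun j => (bigW ρ w j).fn) (j := KI.cw 2) (by exact (circ_nonneg (c := 0) (hρ 2)).2 (by have := t5 z; rw [sub_zero]; linarith)), can_ax']
    exact hsym _ _ _ (hc 0 z h3)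
  · intro z _ h0
    have h3 := (circ_zero (c := 1 / 2) (hρ 1)).1 h0
    have hl : can (fun j => (bigW ρ w j).fn) (.leaf (.cu 1) : WTree (KI n) (CI N)) z = .cu 1 := rfl
    rw [hl, can_out (g := fun j => (bigW ρ w j).fn) (j := KI.cw 2) (by exact (circ_nonneg (c := 0) (hρ 2)).2 (by have := t2 z; rw [sub_zero]; linarith)),
      can_ax']
    exact hsym _ _ _ (hc 1 z h3)
  · intro z _ h0
    have h3 := (circ_zero (c := 0) (hρ 2)).1 h0
    have hl : can (fun j => (bigW ρ w j).fn) (.leaf (.cu 2) : WTree (KI n) (CI N)) z = .cu 2 := rfl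
    rw [hl, can_ax']
    exact hsym _ _ _ (hc 2 z (by simpa [cen] using h3))
  · -- real axis
    intro z hz h0
    have him : z.im = 0 := by
      have h : (Wall.line 0 1 0).fn z = 0 := h0
      simpa [Wall.fn] using h
    have hD := dom hz
    rw [can_tmap, can_tmap, e, can_conj, Complex.conj_eq_iff_im.2 him]
    exact hsym _ _ _ (hax z hD him)
  · refine edges_tmap _ _ _ _ _ _ ?_
    rw [e]
    refine edges_conj _ _ _ _ (Edges.mono _ _ _ ?_ hlo)
    intro z hz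
    have hD := dom hz.1
    refine ⟨?_, dom_conj hD⟩
    have h : (Wall.line 0 1 0).fn (conj z) ≤ 0 := hz.2
    have h2 : -z.im ≤ 0 := by simpa [Wall.fn] using h
    linarith
  · refine edges_tmap _ _ _ _ _ _ (Edges.mono _ _ _ ?_ hup)
    intro z hz
    refine ⟨?_, dom hz.1⟩
    have h : 0 ≤ (Wall.line 0 1 0).fn z := hz.2
    simpa [Wall.fn] using h

end big

/-! ### the top data -/

/-- the data of route N: upper tree, walls, radii, frames of the upper cells and of the discs -/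
structure TopN (N n m : ℕ) where
  TU : WTree (Fin n) (Fin N)
  w : Fin n → Wall
  ρ : Fin 4 → ℝ
  ρ_pos : ∀ c, 0 < ρ c
  s01 : ρ 0 + ρ 1 < 1 / 2
  s12 : ρ 1 + ρ 2 < 1 / 2
  s3 : 1 < ρ 3
  Uu : Fin N → Set ℂ
  open_u : ∀ k, IsOpen (Uu k)
  reg_u : ∀ k z, z ∈ Dom ρ → 0 ≤ z.im → z ∈ TU.reg (fun j => (w j).fn) 0 k → z ∈ Uu k
  Su : Fin N → ℂ → Matrix (Fin m) (Fin m) ℂ
  uni_u : ∀ k, ∀ z ∈ Uu k, Unitri (Su k z)
  hol_u : ∀ k b c, DifferentiableOn ℂ (fun z => Su k z b c) (Uu k)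
  Ud : Fin 4 → Set ℂ
  open_d : ∀ c, IsOpen (Ud c)
  reg_d : ∀ c, c ≠ 3 → ∀ z, ‖z - cen c‖ ≤ ρ c → z ∈ Ud c
  ε1 : ℝ
  ε1_pos : 0 < ε1
  ε1_lt : ε1 < 1
  reg_3 : ∀ z : ℂ, ρ 3 ^ 2 - ε1 ≤ ‖z - 1 / 2‖ ^ 2 → z ∈ Ud 3
  Sd : Fin 4 → ℂ → Matrix (Fin m) (Fin m) ℂ
  uni_d : ∀ c, ∀ z ∈ Ud c, Unitri (Sd c z)
  hol_d : ∀ c b b', DifferentiableOn ℂ (fun z => Sd c z b b') (Ud c)
  lim : ∀ b, ∃ c : Fin m → ℂ, Tendsto (fun z => Sd 3 z b) (cocompact ℂ) (𝓝 c)

namespace TopN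
variable {N n m : ℕ} (D : TopN N n m)

/-- all open sets -/
def U : CI N → Set ℂ
  | .up k => D.Uu k
  | .lo k => {z | conj z ∈ D.Uu k}
  | .cu c => D.Ud c

/-- all frames -/
noncomputable def S : CI N → ℂ → Matrix (Fin m) (Fin m) ℂ
  | .up k => D.Su k
  | .lo k => fun z => (D.Su k (conj z)).map conj
  | .cu c => D.Sd c

theorem unitri_conj {A : Matrix (Fin m) (Fin m) ℂ} (h : Unitri A) : Unitri (A.map conj) := by
  refine ⟨fun b c hc => ?_, fun b => ?_⟩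
  · rw [Matrix.map_apply, h.1 b c hc, map_zero]
  · rw [Matrix.map_apply, h.2 b, map_one]

/-- the sharp data -/
noncomputable def sharp : Sharp (KI n) (CI N) m where
  T := bigT D.TU
  w := bigW D.ρ D.w
  ie := .cu 3
  R1 := D.ρ 3 + 2
  ε1 := D.ε1
  ε1_pos := D.ε1_pos
  ε1_lt := D.ε1_lt
  ext := by
    intro z hz i hi hc
    have h1 : ‖z - 1 / 2‖ ^ 2 - D.ρ 3 ^ 2 ≤ D.ε1 := by
      have := bounded_reg hi hc
      simpa [Wall.fn, Complex.normSq_eq_norm_sq, cen] using this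
    have h2 : ‖z - 1 / 2‖ < D.ρ 3 + 1 := by
      have h3 := D.ε1_lt
      have h4 := D.ρ_pos 3
      by_contra hc
      nlinarith [norm_nonneg (z - 1 / 2)]
    have h5 : ‖z‖ ≤ ‖z - 1 / 2‖ + 1 / 2 := by
      have h := norm_add_le (z - 1 / 2) (1 / 2 : ℂ)
      have e : z - 1 / 2 + 1 / 2 = z := by ring
      have n2 : ‖(1 / 2 : ℂ)‖ = 1 / 2 := by norm_num
      rw [e, n2] at h
      exact h
    linarith
  U := D.U
  isOpen_U := by
    rintro (k | k | c)
    · exact D.open_u k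
    · exact (D.open_u k).preimage Complex.continuous_conj
    · exact D.open_d c
  reg_ie := by
    intro z hz
    refine D.reg_3 z ?_
    have := mem_cu3_reg hz
    have h : -D.ε1 ≤ ‖z - 1 / 2‖ ^ 2 - D.ρ 3 ^ 2 := by
      simpa [Wall.fn, Complex.normSq_eq_norm_sq, cen] using this
    linarith
  reg0 := by
    rintro (k | k | c) z hz
    · obtain ⟨h1, h2, h3⟩ := mem_up D.ρ_pos hz
      exact D.reg_u k z h1 h2 h3
    · obtain ⟨h1, h2, h3⟩ := mem_lo D.ρ_pos hz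
      refine D.reg_u k (conj z) ((dom_conj_iff z).2 h1) ?_ h3
      rw [Complex.conj_im]
      linarith
    · by_cases hc : c = 3
      · subst hc
        refine D.reg_3 z ?_
        have := mem_cu3_reg hz
        have h : -(0 : ℝ) ≤ ‖z - 1 / 2‖ ^ 2 - D.ρ 3 ^ 2 := by
          simpa [Wall.fn, Complex.normSq_eq_norm_sq, cen] using this
        have := D.ε1_pos
        linarith
      · exact D.reg_d c hc z ((circ_nonpos (D.ρ_pos c)).1 (mem_cu_reg hc hz).1)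
  S := D.S
  uni := by
    rintro (k | k | c) z hz
    · exact D.uni_u k z hz
    · exact unitri_conj (D.uni_u k (conj z) hz)
    · exact D.uni_d c z hz
  hol := by
    rintro (k | k | c) b b'
    · exact D.hol_u k b b'
    · intro z hz
      have h1 : DifferentiableAt ℂ (fun z => D.Su k z b b') (conj z) :=
        ((D.hol_u k b b') _ hz).differentiableAt ((D.open_u k).mem_nhds hz)
      exact (differentiableAt_conj_conj_iff.2 h1).differentiableWithinAt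
    · exact D.hol_d c b b'
  lim := D.lim

/-- transition entries -/
noncomputable def tr (A B : Matrix (Fin m) (Fin m) ℂ) (b c : Fin m) : ℂ := (A b ᵥ* B⁻¹) c

theorem tr_conj {A B : Matrix (Fin m) (Fin m) ℂ} (hB : IsUnit B.det) (b c : Fin m) :
    tr (A.map conj) (B.map conj) b c = conj (tr A B b c) := by
  have h1 : (B.map conj)⁻¹ = (B⁻¹).map conj := by
    refine Matrix.inv_eq_right_inv ?_
    have h2 : B * B⁻¹ = 1 := Matrix.mul_nonsing_inv B hB
    have h3 : (B * B⁻¹).map conj = B.map conj * (B⁻¹).map conj :=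
      Matrix.map_mul (f := starRingEnd ℂ)
    rw [← h3, h2]
    exact Matrix.map_one _ (map_zero _) (map_one _)
  unfold tr
  rw [h1]
  simp only [Matrix.vecMul, dotProduct, Matrix.map_apply, map_sum, map_mul]

theorem Zs_eq (i i' : CI N) (b c : Fin m) : D.sharp.Zs i i' b c =
    closure {z | z ∈ D.U i ∧ z ∈ D.U i' ∧ tr (D.S i z) (D.S i' z) b c ≠ 0} := rfl

/-- a point where the entry vanishes nearby is not in `Zs` -/
theorem notMem_Zs {i i' : CI N} {b c : Fin m} {z : ℂ}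
    (h : ∀ᶠ z' in 𝓝 z, z' ∈ D.U i → z' ∈ D.U i' → tr (D.S i z') (D.S i' z') b c = 0) :
    z ∉ D.sharp.Zs i i' b c := by
  rw [Zs_eq, mem_closure_iff_frequently]
  intro hf
  obtain ⟨z', ⟨h2, h3, h4⟩, h1⟩ := (hf.and_eventually h).exists
  exact h4 (h1 h2 h3)

theorem Zs_mirror {k k' : Fin N} {b c : Fin m} {z : ℂ}
    (h : conj z ∈ D.sharp.Zs (.lo k) (.lo k') b c) : z ∈ D.sharp.Zs (.up k) (.up k') b c := by
  rw [Zs_eq, mem_closure_iff_frequently] at h ⊢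
  have hc : Tendsto (fun z : ℂ => conj z) (𝓝 (conj z)) (𝓝 z) := by
    have := Complex.continuous_conj.tendsto (conj z)
    simpa using this
  refine hc.frequently (h.mono ?_)
  rintro z' ⟨h1, h2, h3⟩
  have h2' : conj z' ∈ D.Uu k' := h2
  refine ⟨h1, h2, fun h4 => h3 ?_⟩
  change tr ((D.Su k (conj z')).map conj) ((D.Su k' (conj z')).map conj) b c = 0
  rw [tr_conj (D.uni_u k' _ h2').isUnit]
  have h4' : tr (D.Su k (conj z')) (D.Su k' (conj z')) b c = 0 := h4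
  rw [h4', map_zero]

theorem Zs_mirror' {k : Fin N} {b c : Fin m} {z : ℂ}
    (h : z ∈ D.sharp.Zs (.lo k) (.up k) b c) : conj z ∈ D.sharp.Zs (.up k) (.lo k) b c := by
  rw [Zs_eq, mem_closure_iff_frequently] at h ⊢
  have hc : Tendsto (fun z : ℂ => conj z) (𝓝 z) (𝓝 (conj z)) := Complex.continuous_conj.tendsto z
  refine hc.frequently (h.mono ?_)
  rintro z' ⟨h1, h2, h3⟩
  have h1' : conj z' ∈ D.Uu k := h1
  have h2' : z' ∈ D.Uu k := h2
  refine ⟨h1, by change conj (conj z') ∈ D.Uu k; rwa [Complex.conj_conj], fun h4 => h3 ?_⟩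
  change tr ((D.Su k (conj z')).map conj) (D.Su k z') b c = 0
  have h4' : tr (D.Su k (conj z')) ((D.Su k (conj (conj z'))).map conj) b c = 0 := h4
  rw [Complex.conj_conj] at h4'
  have e : (((D.Su k z').map conj).map conj) = D.Su k z' := by
    ext i j
    simp
  have h5 := tr_conj (A := D.Su k (conj z')) (B := (D.Su k z').map conj)
    (unitri_conj (D.uni_u k _ h2')).isUnit b c
  rw [e, h4', map_zero] at h5
  exact h5

/-- the patterns: which entries of the transitions may be different from zero.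
`pR z k` : real point `z`, upper cell `k` against its mirror image; `pI k k'` : two upper cells;
`pC c k` : upper cell `k` against the disc `c` (both directions, and the mirror images). -/
structure Pat where
  pR : ℂ → Fin N → Fin m → Fin m → Prop
  pI : Fin N → Fin N → Fin m → Fin m → Prop
  pC : Fin 4 → Fin N → Fin m → Fin m → Prop
  hR : ∀ z ∈ Dom D.ρ, z.im = 0 → ∀ k, z ∈ D.Uu k → ∀ b c, ¬ pR z k b c →
    ∀ᶠ z' in 𝓝 z, z' ∈ D.Uu k → conj z' ∈ D.Uu k →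
      tr (D.Su k z') ((D.Su k (conj z')).map conj) b c = 0
  hI : ∀ z ∈ Dom D.ρ, 0 ≤ z.im → ∀ k k', z ∈ D.Uu k → z ∈ D.Uu k' → ∀ b c, ¬ pI k k' b c →
    ∀ᶠ z' in 𝓝 z, z' ∈ D.Uu k → z' ∈ D.Uu k' → tr (D.Su k z') (D.Su k' z') b c = 0
  hC1 : ∀ c z, ‖z - cen c‖ = D.ρ c → 0 ≤ z.im → ∀ k, z ∈ D.Uu k → ∀ b b', ¬ pC c k b b' →
    ∀ᶠ z' in 𝓝 z, z' ∈ D.Uu k → z' ∈ D.Ud c → tr (D.Su k z') (D.Sd c z') b b' = 0
  hC2 : ∀ c z, ‖z - cen c‖ = D.ρ c → 0 ≤ z.im → ∀ k, z ∈ D.Uu k → ∀ b b', ¬ pC c k b b' →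
    ∀ᶠ z' in 𝓝 z, z' ∈ D.Uu k → z' ∈ D.Ud c → tr (D.Sd c z') (D.Su k z') b b' = 0
  hC3 : ∀ c z, ‖z - cen c‖ = D.ρ c → z.im < 0 → ∀ k, conj z ∈ D.Uu k → ∀ b b', ¬ pC c k b b' →
    ∀ᶠ z' in 𝓝 z, conj z' ∈ D.Uu k → z' ∈ D.Ud c →
      tr ((D.Su k (conj z')).map conj) (D.Sd c z') b b' = 0
  hC4 : ∀ c z, ‖z - cen c‖ = D.ρ c → z.im < 0 → ∀ k, conj z ∈ D.Uu k → ∀ b b', ¬ pC c k b b' →
    ∀ᶠ z' in 𝓝 z, conj z' ∈ D.Uu k → z' ∈ D.Ud c →
      tr (D.Sd c z') ((D.Su k (conj z')).map conj) b b' = 0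

/-- the canonical upper cell of a point -/
noncomputable def cn (z : ℂ) : Fin N := can (fun j => (D.w j).fn) D.TU z

theorem cn_mem {z : ℂ} (h1 : z ∈ Dom D.ρ) (h2 : 0 ≤ z.im) : z ∈ D.Uu (D.cn z) :=
  D.reg_u _ z h1 h2 (can_mem _ _ z)

theorem dom_of_circle {c : Fin 4} {z : ℂ} (hz : ‖z - cen c‖ = D.ρ c) : z ∈ Dom D.ρ :=
  circle_mem_Dom D.ρ_pos D.s01 D.s12 D.s3 c hz

/-- **condition (C) of route N from three lists of inequalities** : on the real axis, on the walls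
of the upper tree, on the upper halves of the cusp circles -/
theorem cond (Q : D.Pat) {W : Fin m → ℂ → ℝ} (hsym : ∀ b z, W b (conj z) = W b z)
    (n1 : ∀ z ∈ Dom D.ρ, z.im = 0 → ∀ b c, Q.pR z (D.cn z) b c → W c z ≤ W b z)
    (n2 : Edges (fun j => (D.w j).fn)
      (fun k k' z => ∀ b c, (Q.pI k k' b c ∨ Q.pI k' k b c) → W c z ≤ W b z)
      {z | 0 ≤ z.im ∧ z ∈ Dom D.ρ} D.TU)
    (n3 : ∀ c z, ‖z - cen c‖ = D.ρ c → 0 ≤ z.im → ∀ b b', Q.pC c (D.cn z) b b' →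
      W b' z ≤ W b z) :
    D.sharp.toWD.Cond W := by
  classical
  refine D.sharp.cond_of_edges ?_
  have hcc : ∀ c : Fin 4, conj (cen c) = cen c := by
    intro c
    have h2 : conj (2 : ℂ) = 2 := map_ofNat _ 2
    fin_cases c <;> simp [cen, h2]
  -- both inner trees
  have hE : Edges (fun j => (D.w j).fn) (fun k k' z => (z ∈ D.Uu k ∧ z ∈ D.Uu k') →
      D.sharp.Eg W (.up k) (.up k') z) {z | 0 ≤ z.im ∧ z ∈ Dom D.ρ} D.TU := by
    refine Edges.imp _ _ ?_ n2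
    intro z hz k k' h hU
    constructor
    · intro b c hZ
      by_cases hp : Q.pI k k' b c
      · exact h b c (Or.inl hp)
      · exact absurd hZ (D.notMem_Zs (Q.hI z hz.2 hz.1 k k' hU.1 hU.2 b c hp))
    · intro b c hZ
      by_cases hp : Q.pI k' k b c
      · exact h b c (Or.inr hp)
      · exact absurd hZ (D.notMem_Zs (Q.hI z hz.2 hz.1 k' k hU.2 hU.1 b c hp))
  have hE1 : Edges (fun j => (D.w j).fn) (fun k k' z => D.sharp.Eg W (.up k) (.up k') z)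
      {z | 0 ≤ z.im ∧ z ∈ Dom D.ρ} D.TU := by
    refine edges_of_mem (A := D.Uu) _ _ ?_ hE
    intro i z hz hi
    exact D.reg_u i z hz.2 hz.1 hi
  have hE2 : Edges (fun j => (D.w j).fn) (fun k k' z => D.sharp.Eg W (.lo k) (.lo k') (conj z))
      {z | 0 ≤ z.im ∧ z ∈ Dom D.ρ} D.TU := by
    refine Edges.imp _ _ ?_ hE1
    intro z _ k k' h
    constructor
    · intro b c hZ
      rw [hsym, hsym]
      exact h.1 b c (D.Zs_mirror hZ)
    · intro b c hZ
      rw [hsym, hsym]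
      exact h.2 b c (D.Zs_mirror hZ)
  refine edges_big D.ρ_pos D.s01 D.s12 D.s3 (fun i i' z h => Sharp.Eg.symm _ h) ?_ ?_ hE1 hE2
  · intro c z hz
    have hd := D.dom_of_circle hz
    by_cases him : 0 ≤ z.im
    · have e : nb D.w D.TU z = .up (D.cn z) := if_pos him
      have hU := D.cn_mem hd him
      rw [e]
      constructor
      · intro b b' hZ
        by_cases hp : Q.pC c (D.cn z) b b'
        · exact n3 c z hz him b b' hp
        · exact absurd hZ (D.notMem_Zs (Q.hC1 c z hz him _ hU b b' hp))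
      · intro b b' hZ
        by_cases hp : Q.pC c (D.cn z) b b'
        · exact n3 c z hz him b b' hp
        · refine absurd hZ (D.notMem_Zs ?_)
          filter_upwards [Q.hC2 c z hz him _ hU b b' hp] with z' h h1 h2
          exact h h2 h1
    · have him' : z.im < 0 := not_le.1 him
      have e : nb D.w D.TU z = .lo (D.cn (conj z)) := if_neg him
      have him2 : 0 ≤ (conj z).im := by rw [Complex.conj_im]; linarith
      have hd2 : conj z ∈ Dom D.ρ := (dom_conj_iff z).2 hd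
      have hU := D.cn_mem hd2 him2
      have hz2 : ‖conj z - cen c‖ = D.ρ c := by
        rw [← hz, ← Complex.norm_conj (z - cen c), map_sub, hcc]
      rw [e]
      constructor
      · intro b b' hZ
        by_cases hp : Q.pC c (D.cn (conj z)) b b'
        · have := n3 c (conj z) hz2 him2 b b' hp
          rwa [hsym, hsym] at this
        · exact absurd hZ (D.notMem_Zs (Q.hC3 c z hz him' _ hU b b' hp))
      · intro b b' hZ
        by_cases hp : Q.pC c (D.cn (conj z)) b b'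
        · have := n3 c (conj z) hz2 him2 b b' hp
          rwa [hsym, hsym] at this
        · refine absurd hZ (D.notMem_Zs ?_)
          filter_upwards [Q.hC4 c z hz him' _ hU b b' hp] with z' h h1 h2
          exact h h2 h1
  · intro z hz him
    have hU := D.cn_mem hz him.ge
    have hcz : conj z = z := Complex.conj_eq_iff_im.2 him
    have key : ∀ b c, z ∈ D.sharp.Zs (.up (D.cn z)) (.lo (D.cn z)) b c → W c z ≤ W b z := by
      intro b c hZ
      by_cases hp : Q.pR z (D.cn z) b c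
      · exact n1 z hz him b c hp
      · exact absurd hZ (D.notMem_Zs (Q.hR z hz him _ hU b c hp))
    refine ⟨key, fun b c hZ => ?_⟩
    have h := D.Zs_mirror' hZ
    rw [hcz] at h
    exact key b c h

end TopN

end Vale.Agent.P030.AR
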