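import Vale.Agent.P030.H265.Thin
import Vale.Agent.P030.H580.Walls

/-!
# P030, route N: from sharp data (closed cells inside open sets) to `WallData`, and condition (C)
from one edge per wall point (helper991)

`Sharp` = decision tree of lines and circles + open sets + frames, nothing about zero patterns.
`Sharp.Zs i i' b c` = closure of the set where the transition entry is nonzero.
`Sharp.cond_of_edges` : it suffices to compare, at every point of every wall, the two CANONICAL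
cells on its two sides.
-/

open Matrix Set Filter Topology
open Vale.Agent.P030.H580 Vale.Agent.P030.H152 Vale.Agent.P030.H265

namespace Vale.Agent.P030.AR

section tree
variable {κ ι : Type}

open Classical in
/-- the canonical cell of a point (ties go to the right) -/
noncomputable def can (g : κ → ℂ → ℝ) : WTree κ ι → ℂ → ι
  | .leaf i, _ => i
  | .node j l r, z => if 0 ≤ g j z then can g r z else can g l z

theorem can_mem [DecidableEq ι] (g : κ → ℂ → ℝ) (T : WTree κ ι) (z : ℂ) :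
    z ∈ T.reg g 0 (can g T z) := by
  induction T with
  | leaf i => rfl
  | node j l r hl hr =>
    by_cases h : 0 ≤ g j z
    · have e : can g (.node j l r) z = can g r z := if_pos h
      rw [e]
      exact Or.inl ⟨by simpa using h, hr⟩
    · have e : can g (.node j l r) z = can g l z := if_neg h
      rw [e]
      exact Or.inr ⟨(not_le.1 h).le, hl⟩

/-- one edge per wall point: at every point of the wall of every node (inside the domain of the
node) the relation `E` holds between the canonical cells of the two sides -/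
def Edges (g : κ → ℂ → ℝ) (E : ι → ι → ℂ → Prop) : Set ℂ → WTree κ ι → Prop
  | _, .leaf _ => True
  | D, .node j l r => (∀ z ∈ D, g j z = 0 → E (can g l z) (can g r z) z) ∧
      Edges g E (D ∩ {z | g j z ≤ 0}) l ∧ Edges g E (D ∩ {z | 0 ≤ g j z}) r

theorem edges_all [DecidableEq ι] {g : κ → ℂ → ℝ} {E : ι → ι → ℂ → Prop} {A : ι → Set ℂ}
    (hr : ∀ i, ∀ z ∈ A i, E i i z) (hs : ∀ i i' z, E i i' z → E i' i z)
    (ht : ∀ i i' i'' z, z ∈ A i' → E i i' z → E i' i'' z → E i i'' z) :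
    ∀ (T : WTree κ ι) (D : Set ℂ), (∀ i, ∀ z ∈ D, z ∈ T.reg g 0 i → z ∈ A i) →
      Edges g E D T → ∀ z ∈ D, ∀ i i', z ∈ T.reg g 0 i → z ∈ T.reg g 0 i' → E i i' z := by
  intro T
  induction T with
  | leaf i0 =>
    intro D hA _ z hz i i' hi hi'
    have h1 : i = i0 := hi
    have h2 : i' = i0 := hi'
    subst h1 h2
    exact hr _ z (hA _ z hz hi)
  | node j l r ihl ihr =>
    intro D hA hE z hz i i' hi hi'
    obtain ⟨h0, hEl, hEr⟩ := hE
    have Al : ∀ i, ∀ z ∈ D ∩ {z | g j z ≤ 0}, z ∈ l.reg g 0 i → z ∈ A i := fun i z h1 h2 =>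
      hA i z h1.1 (Or.inr ⟨h1.2, h2⟩)
    have Ar : ∀ i, ∀ z ∈ D ∩ {z | 0 ≤ g j z}, z ∈ r.reg g 0 i → z ∈ A i := fun i z h1 h2 =>
      hA i z h1.1 (Or.inl ⟨by simpa using h1.2, h2⟩)
    have key : 0 ≤ g j z → g j z ≤ 0 → ∀ i i', z ∈ l.reg g 0 i → z ∈ r.reg g 0 i' → E i i' z := by
      intro h1 h2 i i' hi hi'
      have hl1 := ihl _ Al hEl z ⟨hz, h2⟩ i (can g l z) hi (can_mem g l z)
      have hr1 := ihr _ Ar hEr z ⟨hz, h1⟩ (can g r z) i' (can_mem g r z) hi'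
      have hm := h0 z hz (le_antisymm h2 h1)
      have a1 : z ∈ A (can g l z) := Al _ z ⟨hz, h2⟩ (can_mem g l z)
      have a2 : z ∈ A (can g r z) := Ar _ z ⟨hz, h1⟩ (can_mem g r z)
      exact ht _ _ _ z a1 hl1 (ht _ _ _ z a2 hm hr1)
    rcases hi with ⟨a, b⟩ | ⟨a, b⟩ <;> rcases hi' with ⟨a', b'⟩ | ⟨a', b'⟩
    · exact ihr _ Ar hEr z ⟨hz, by simpa using a⟩ i i' b b'
    · exact hs _ _ _ (key (by simpa using a) a' i' i b' b)
    · exact key (by simpa using a') a i i' b b'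
    · exact ihl _ Al hEl z ⟨hz, a⟩ i i' b b'

theorem Edges.imp {g : κ → ℂ → ℝ} {E E' : ι → ι → ℂ → Prop} (T : WTree κ ι) :
    ∀ (D : Set ℂ), (∀ z ∈ D, ∀ i i', E i i' z → E' i i' z) → Edges g E D T → Edges g E' D T := by
  induction T with
  | leaf i0 => intro D _ _; trivial
  | node j l r ihl ihr =>
    intro D h hE
    exact ⟨fun z hz h0 => h z hz _ _ (hE.1 z hz h0),
      ihl _ (fun z hz => h z hz.1) hE.2.1, ihr _ (fun z hz => h z hz.1) hE.2.2⟩

theorem Edges.mono {g : κ → ℂ → ℝ} {E : ι → ι → ℂ → Prop} (T : WTree κ ι) :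
    ∀ (D D' : Set ℂ), D' ⊆ D → Edges g E D T → Edges g E D' T := by
  induction T with
  | leaf i0 => intro D D' _ _; trivial
  | node j l r ihl ihr =>
    intro D D' h hE
    exact ⟨fun z hz h0 => hE.1 z (h hz) h0,
      ihl _ _ (inter_subset_inter_left _ h) hE.2.1, ihr _ _ (inter_subset_inter_left _ h) hE.2.2⟩

/-- the edge relation may use that the two cells contain the point -/
theorem edges_of_mem [DecidableEq ι] {g : κ → ℂ → ℝ} {E : ι → ι → ℂ → Prop} {A : ι → Set ℂ}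
    (T : WTree κ ι) : ∀ (D : Set ℂ), (∀ i, ∀ z ∈ D, z ∈ T.reg g 0 i → z ∈ A i) →
      Edges g (fun i i' z => (z ∈ A i ∧ z ∈ A i') → E i i' z) D T → Edges g E D T := by
  induction T with
  | leaf i0 => intro D _ _; trivial
  | node j l r ihl ihr =>
    intro D hA hE
    refine ⟨fun z hz h0 => hE.1 z hz h0 ⟨?_, ?_⟩, ihl _ ?_ hE.2.1, ihr _ ?_ hE.2.2⟩
    · exact hA _ z hz (Or.inr ⟨h0.le, can_mem g l z⟩)
    · exact hA _ z hz (Or.inl ⟨by simpa using h0.ge, can_mem g r z⟩)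
    · exact fun i z h1 h2 => hA i z h1.1 (Or.inr ⟨h1.2, h2⟩)
    · exact fun i z h1 h2 => hA i z h1.1 (Or.inl ⟨by simpa using h1.2, h2⟩)

end tree

section sharp
variable {κ ι : Type} [DecidableEq ι] [Fintype ι] [Fintype κ] {m : ℕ}

/-- sharp wall data: lines and circles, closed cells inside open sets, frames -/
structure Sharp (κ ι : Type) [DecidableEq ι] [Fintype ι] [Fintype κ] (m : ℕ) where
  T : WTree κ ι
  w : κ → Wall
  ie : ι
  R1 : ℝ
  ε1 : ℝ
  ε1_pos : 0 < ε1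
  ε1_lt : ε1 < 1
  ext : ∀ z : ℂ, R1 < ‖z‖ → ∀ i, i ≠ ie → z ∉ T.reg (fun j => (w j).fn) ε1 i
  U : ι → Set ℂ
  isOpen_U : ∀ i, IsOpen (U i)
  reg_ie : T.reg (fun j => (w j).fn) ε1 ie ⊆ U ie
  reg0 : ∀ i, T.reg (fun j => (w j).fn) 0 i ⊆ U i
  S : ι → ℂ → Matrix (Fin m) (Fin m) ℂ
  uni : ∀ i, ∀ z ∈ U i, Unitri (S i z)
  hol : ∀ i b c, DifferentiableOn ℂ (fun z => S i z b c) (U i)
  lim : ∀ b, ∃ c : Fin m → ℂ, Tendsto (fun z => S ie z b) (cocompact ℂ) (𝓝 c)

namespace Sharp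
variable (G : Sharp κ ι m)

/-- the wall functions -/
def g (j : κ) : ℂ → ℝ := (G.w j).fn

theorem cont_g (j : κ) : Continuous (G.g j) := (G.w j).contDiff_fn.continuous

theorem exists_eps0 : ∃ ε : ℝ, 0 < ε ∧ ε ≤ G.ε1 ∧ ∀ i, G.T.reg G.g ε i ⊆ G.U i := by
  classical
  have h1 : ∀ i, ∃ ε : ℝ, 0 < ε ∧ ε ≤ G.ε1 ∧ G.T.reg G.g ε i ⊆ G.U i := by
    intro i
    by_cases hi : i = G.ie
    · subst hi
      exact ⟨G.ε1, G.ε1_pos, le_rfl, G.reg_ie⟩
    · obtain ⟨ε, h2, h3⟩ := exists_thin G.cont_g G.T i i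
        (isCompact_closedBall (0 : ℂ) G.R1) (G.isOpen_U i).isClosed_compl
        (φ := fun _ => (1 : ℝ)) continuous_const
        (fun z _ h4 _ h5 => absurd (G.reg0 i h4) h5) (η := 1 / 2) (by norm_num)
      refine ⟨min ε G.ε1, lt_min h2 G.ε1_pos, min_le_right _ _, fun z hz => ?_⟩
      by_contra hc
      have hR : z ∈ Metric.closedBall (0 : ℂ) G.R1 := by
        by_contra hR
        have : G.R1 < ‖z‖ := by simpa using hR
        exact G.ext z this i hi (reg_mono (min_le_right _ _) G.T i hz)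
      have h6 := h3 z hR (reg_mono (min_le_left _ _) G.T i hz)
        (reg_mono (min_le_left _ _) G.T i hz) hc
      norm_num at h6
  choose e he he1 he2 using h1
  obtain ⟨p0, hp0⟩ := @Finite.exists_min ι ℝ _ ⟨G.ie⟩ _ e
  exact ⟨e p0, he p0, he1 p0, fun i z hz => he2 i (reg_mono (hp0 i) G.T i hz)⟩

/-- the closure of the set where the transition entry is nonzero -/
def Zs (i i' : ι) (b c : Fin m) : Set ℂ :=
  closure {z | z ∈ G.U i ∧ z ∈ G.U i' ∧ (G.S i z b ᵥ* (G.S i' z)⁻¹) c ≠ 0}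

/-- helper265's wall data -/
noncomputable def toWD : WallData κ ι m where
  T := G.T
  g := G.g
  smooth := fun j => (G.w j).contDiff_fn
  ε0 := G.exists_eps0.choose
  L := (Wall.exists_lip G.w (ε := G.ε1) G.ε1_lt).choose
  R1 := G.R1
  ie := G.ie
  ε0_pos := G.exists_eps0.choose_spec.1
  L_pos := (Wall.exists_lip G.w G.ε1_lt).choose_spec.1
  der := fun j z h => (Wall.exists_lip G.w G.ε1_lt).choose_spec.2.1 j z
    (h.trans G.exists_eps0.choose_spec.2.1)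
  lip := fun j x z h hd => (Wall.exists_lip G.w G.ε1_lt).choose_spec.2.2 j x z
    (h.trans G.exists_eps0.choose_spec.2.1) hd
  ext := fun z hz i hi hc => G.ext z hz i hi
    (reg_mono G.exists_eps0.choose_spec.2.1 G.T i hc)
  U := G.U
  reg_U := G.exists_eps0.choose_spec.2.2
  isOpen_U := G.isOpen_U
  S := G.S
  uni := G.uni
  hol := G.hol
  lim := G.lim
  Z := G.Zs
  closed_Z := fun _ _ _ _ => isClosed_closure
  zero := fun i i' z hz hz' b c hZ => by
    by_contra hne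
    exact hZ (subset_closure ⟨hz, hz', hne⟩)

/-- transition matrices multiply -/
theorem trans_mul {i' : ι} {z : ℂ} (hz : z ∈ G.U i') (i i'' : ι) (b c : Fin m) :
    (G.S i z b ᵥ* (G.S i'' z)⁻¹) c =
      ∑ b', (G.S i z b ᵥ* (G.S i' z)⁻¹) b' * (G.S i' z b' ᵥ* (G.S i'' z)⁻¹) c := by
  have h1 : G.S i z b = (G.S i z b ᵥ* (G.S i' z)⁻¹) ᵥ* G.S i' z := by
    rw [Matrix.vecMul_vecMul, Matrix.nonsing_inv_mul _ (G.uni i' z hz).isUnit,
      Matrix.vecMul_one]
  conv_lhs => rw [h1, Matrix.vecMul_vecMul]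
  simp only [Matrix.vecMul, dotProduct, Matrix.mul_apply]

/-- transitivity of the nonzero sets -/
theorem Zs_trans {i i' i'' : ι} {z : ℂ} (hz : z ∈ G.U i') {b c : Fin m}
    (h : z ∈ G.Zs i i'' b c) : ∃ b', z ∈ G.Zs i i' b b' ∧ z ∈ G.Zs i' i'' b' c := by
  classical
  have h1 : z ∈ closure ({z | z ∈ G.U i ∧ z ∈ G.U i'' ∧
      (G.S i z b ᵥ* (G.S i'' z)⁻¹) c ≠ 0} ∩ G.U i') := by
    rw [mem_closure_iff]
    intro o ho hzo
    obtain ⟨x, hx, hx2⟩ := mem_closure_iff.1 h (o ∩ G.U i') (ho.inter (G.isOpen_U i')) ⟨hzo, hz⟩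
    exact ⟨x, hx.1, hx2, hx.2⟩
  have h2 : ({z | z ∈ G.U i ∧ z ∈ G.U i'' ∧ (G.S i z b ᵥ* (G.S i'' z)⁻¹) c ≠ 0} ∩ G.U i') ⊆
      ⋃ b' : Fin m, ({z | z ∈ G.U i ∧ z ∈ G.U i' ∧ (G.S i z b ᵥ* (G.S i' z)⁻¹) b' ≠ 0} ∩
        {z | z ∈ G.U i' ∧ z ∈ G.U i'' ∧ (G.S i' z b' ᵥ* (G.S i'' z)⁻¹) c ≠ 0}) := by
    rintro x ⟨⟨hx1, hx2, hx3⟩, hx4⟩
    rw [G.trans_mul hx4] at hx3
    obtain ⟨b', -, hb'⟩ := Finset.exists_ne_zero_of_sum_ne_zero hx3
    exact mem_iUnion.2 ⟨b', ⟨hx1, hx4, left_ne_zero_of_mul hb'⟩,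
      ⟨hx4, hx2, right_ne_zero_of_mul hb'⟩⟩
  have h3 := closure_mono h2 h1
  rw [closure_iUnion_of_finite] at h3
  obtain ⟨b', hb'⟩ := mem_iUnion.1 h3
  exact ⟨b', closure_mono inter_subset_left hb', closure_mono inter_subset_right hb'⟩

/-- the comparison of two cells at a point, both directions -/
def Eg (W : Fin m → ℂ → ℝ) (i i' : ι) (z : ℂ) : Prop :=
  (∀ b c, z ∈ G.Zs i i' b c → W c z ≤ W b z) ∧ (∀ b c, z ∈ G.Zs i' i b c → W c z ≤ W b z)

theorem Zs_self {i : ι} {b c : Fin m} (hbc : b ≠ c) : G.Zs i i b c = ∅ := by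
  have : {z | z ∈ G.U i ∧ z ∈ G.U i ∧ (G.S i z b ᵥ* (G.S i z)⁻¹) c ≠ 0} = ∅ := by
    ext z
    simp only [mem_ofPred_eq, mem_empty_iff_false, iff_false, not_and, not_not]
    intro hz _
    have h2 := Matrix.mul_nonsing_inv (G.S i z) (G.uni i z hz).isUnit
    have h1 : G.S i z b ᵥ* (G.S i z)⁻¹ = fun c => (1 : Matrix (Fin m) (Fin m) ℂ) b c := by
      rw [← h2]
      rfl
    rw [h1]
    exact Matrix.one_apply_ne hbc
  rw [Zs, this, closure_empty]

theorem Eg.refl (W : Fin m → ℂ → ℝ) (i : ι) (z : ℂ) : G.Eg W i i z := by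
  have h : ∀ b c, z ∈ G.Zs i i b c → W c z ≤ W b z := by
    intro b c h
    by_cases hbc : b = c
    · rw [hbc]
    · rw [G.Zs_self hbc] at h
      exact absurd h (notMem_empty z)
  exact ⟨h, h⟩

theorem Eg.symm {W : Fin m → ℂ → ℝ} {i i' : ι} {z : ℂ} (h : G.Eg W i i' z) : G.Eg W i' i z :=
  ⟨h.2, h.1⟩

theorem Eg.trans {W : Fin m → ℂ → ℝ} {i i' i'' : ι} {z : ℂ} (hz : z ∈ G.U i')
    (h : G.Eg W i i' z) (h' : G.Eg W i' i'' z) : G.Eg W i i'' z := by
  constructor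
  · intro b c hc
    obtain ⟨b', h1, h2⟩ := G.Zs_trans hz hc
    exact (h'.1 _ _ h2).trans (h.1 _ _ h1)
  · intro b c hc
    obtain ⟨b', h1, h2⟩ := G.Zs_trans hz hc
    exact (h.2 _ _ h2).trans (h'.2 _ _ h1)

/-- **condition (C) from one edge per wall point** -/
theorem cond_of_edges {W : Fin m → ℂ → ℝ} (h : Edges G.g (G.Eg W) univ G.T) :
    G.toWD.Cond W := by
  intro i i' _ b c _ z hz hz' hZ
  have := edges_all (A := G.U) (fun i z _ => Eg.refl G W i z) (fun i i' z h => Eg.symm G h)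
    (fun i i' i'' z hz h h' => Eg.trans G hz h h') G.T univ (fun i z _ hz => G.reg0 i hz) h z
    (mem_univ z) i i' hz hz'
  exact this.1 b c hZ

end Sharp

end sharp

end Vale.Agent.P030.AR
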